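import Vale.Agent.P133.H681.GenDef

/-!
P133 (helper28): definitions for the result on orthogonal sums.
-/

open scoped ComplexOrder

namespace Vale.Agent.P133.R2.H28

open Vale.Agent.P133.H832

universe u

section

variable {A : Type u} [NonUnitalCStarAlgebra A]

/-- the hereditary subalgebra generated by the positive element `a`: the closure of `a A a` -/
def Her (a : A) : Set A := closure (Set.range fun w => a * w * a)

/-- the cut-down `(c - ε)₊` of the positive element `c` -/
noncomputable def cut [PartialOrder A] [StarOrderedRing A] (c : A) (ε : ℝ) : A :=
  cfcₙ (fun t : ℝ => max (t - ε) 0) c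

end

end Vale.Agent.P133.R2.H28
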