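import Vale.Agent.P133.H832.Tame2
import Vale.Agent.P133.R2.H28.Defs

/-!
P133 (helper28, after a lemma of helper954): closed right ideals, cut-downs, norms modulo sets.
-/

open scoped ComplexOrder

namespace Vale.Agent.P133.R2.H28

open Vale.Agent.P133 Vale.Agent.P133.H832

universe u

section

variable {A : Type u} [NonUnitalCStarAlgebra A]

/-- the closed right ideal generated by `z` -/
def RI (z : A) : Set A := closure (Set.range fun w => z * w)

/-- the image of `x` has norm at most `δ` in all C*-algebras in which the elements of `K` die -/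
def NormMod (K : Set A) (x : A) (δ : ℝ) : Prop :=
  ∀ (B : Type u) (_ : NonUnitalCStarAlgebra B) (φ : A →⋆ₙₐ[ℂ] B),
    (∀ k ∈ K, φ k = 0) → ‖φ x‖ ≤ δ

theorem mem_RI {z a : A} : a ∈ RI z ↔ ∀ ε : ℝ, 0 < ε → ∃ w, ‖z * w - a‖ < ε := by
  rw [RI, Metric.mem_closure_iff]
  constructor
  · intro h ε hε
    obtain ⟨b, ⟨w, rfl⟩, hb⟩ := h ε hε
    exact ⟨w, by rw [dist_comm, dist_eq_norm] at hb; exact hb⟩
  · intro h ε hε
    obtain ⟨w, hw⟩ := h ε hε
    exact ⟨z * w, ⟨w, rfl⟩, by rw [dist_comm, dist_eq_norm]; exact hw⟩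

theorem RI.mul_self (z w : A) : z * w ∈ RI z := subset_closure ⟨w, rfl⟩

theorem RI.mul {z a : A} (h : a ∈ RI z) (b : A) : a * b ∈ RI z := by
  have h1 : Continuous fun y : A => y * b := by fun_prop
  refine map_mem_closure (f := fun y : A => y * b) h1 h ?_
  rintro _ ⟨w, rfl⟩
  exact ⟨w * b, by simp only [mul_assoc]⟩

theorem RI.zero (z : A) : (0 : A) ∈ RI z := by
  have := RI.mul_self z 0
  rwa [mul_zero] at this

theorem RI.add {z a b : A} (ha : a ∈ RI z) (hb : b ∈ RI z) : a + b ∈ RI z := by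
  refine map_mem_closure₂ (f := fun x y : A => x + y) continuous_add ha hb ?_
  rintro _ ⟨w, rfl⟩ _ ⟨w', rfl⟩
  exact ⟨w + w', by simp only [mul_add]⟩

theorem RI.sum {z : A} {κ : Type} (s : Finset κ) {f : κ → A} (h : ∀ k ∈ s, f k ∈ RI z) :
    ∑ k ∈ s, f k ∈ RI z :=
  Finset.sum_induction f (fun x => x ∈ RI z) (fun _ _ => RI.add) (RI.zero z) h

theorem RI.lim {z a : A} (h : ∀ ε : ℝ, 0 < ε → ∃ b ∈ RI z, ‖b - a‖ < ε) : a ∈ RI z := by
  have h1 : a ∈ closure (RI z) := Metric.mem_closure_iff.2 fun ε hε => by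
    obtain ⟨y, hy, h1⟩ := h ε hε
    exact ⟨y, hy, by rw [dist_comm, dist_eq_norm]; exact h1⟩
  rwa [RI, closure_closure] at h1

theorem RI.trans {z z' a : A} (h : a ∈ RI z') (hz : z' ∈ RI z) : a ∈ RI z := by
  refine RI.lim fun ε hε => ?_
  obtain ⟨w, hw⟩ := mem_RI.1 h ε hε
  exact ⟨z' * w, RI.mul hz w, hw⟩

/-- orthogonality of right ideals -/
theorem RI.orth {z z' a a' : A} (h : star z * z' = 0) (ha : a ∈ RI z) (ha' : a' ∈ RI z') :
    star a * a' = 0 := by
  have h1 : ∀ w : A, star (z * w) * a' = 0 := by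
    intro w
    have h2 : IsClosed {y : A | star (z * w) * y = 0} := isClosed_eq (by fun_prop) (by fun_prop)
    refine closure_minimal ?_ h2 ha'
    rintro _ ⟨w', rfl⟩
    show star (z * w) * (z' * w') = 0
    rw [star_mul]
    calc _ = star w * (star z * z') * w' := by simp only [mul_assoc]
      _ = 0 := by rw [h]; simp
  have h2 : IsClosed {y : A | star y * a' = 0} := isClosed_eq (by fun_prop) (by fun_prop)
  refine closure_minimal ?_ h2 ha
  rintro _ ⟨w, rfl⟩
  exact h1 w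

theorem NormMod.mono {K : Set A} {x : A} {δ δ' : ℝ} (h : NormMod K x δ) (hδ : δ ≤ δ') :
    NormMod K x δ' := fun B i φ hφ => (h B i φ hφ).trans hδ

theorem NormMod.of_norm {K : Set A} {x : A} {δ : ℝ} (h : ‖x‖ ≤ δ) : NormMod K x δ :=
  fun _ _ φ _ => (NonUnitalStarAlgHom.norm_apply_le φ x).trans h

/-- if `c` is in the ideal of `x` and `x` is small, so is `c` -/
theorem normMod_inId {x c : A} (h : InId x c) {ε : ℝ} (hε : 0 < ε) :
    ∃ δ : ℝ, 0 < δ ∧ ∀ K : Set A, NormMod K x δ → NormMod K c ε := by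
  obtain ⟨m, r, s, hrs⟩ := h (ε / 2) (half_pos hε)
  set C : ℝ := ∑ k, ‖r k‖ * ‖s k‖ with hC
  have hC0 : 0 ≤ C := Finset.sum_nonneg fun k _ => by positivity
  refine ⟨ε / (2 * (C + 1)), by positivity, fun K hK B i φ hφ => ?_⟩
  have h1 := hK B i φ hφ
  have h2 : φ c = ∑ k, φ (r k) * φ x * φ (s k) - φ (∑ k, r k * x * s k - c) := by
    rw [map_sub, map_sum]; simp only [map_mul]; abel
  have h3 : ‖∑ k, φ (r k) * φ x * φ (s k)‖ ≤ C * (ε / (2 * (C + 1))) := by
    rw [hC, Finset.sum_mul]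
    refine norm_sum_le_of_le _ fun k _ => ?_
    calc _ ≤ ‖φ (r k)‖ * ‖φ x‖ * ‖φ (s k)‖ :=
          (norm_mul_le _ _).trans (by gcongr; exact norm_mul_le _ _)
      _ ≤ ‖r k‖ * (ε / (2 * (C + 1))) * ‖s k‖ := by
          gcongr
          · exact NonUnitalStarAlgHom.norm_apply_le φ _
          · exact NonUnitalStarAlgHom.norm_apply_le φ _
      _ = _ := by ring
  have h4 : C * (ε / (2 * (C + 1))) ≤ ε / 2 := by
    rw [mul_div_assoc', div_le_div_iff₀ (by positivity) (by norm_num)]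
    nlinarith
  calc ‖φ c‖ ≤ ‖∑ k, φ (r k) * φ x * φ (s k)‖ + ‖φ (∑ k, r k * x * s k - c)‖ := by
        rw [h2]; exact norm_sub_le _ _
    _ ≤ ε / 2 + ε / 2 := by
        gcongr
        · linarith
        · exact (NonUnitalStarAlgHom.norm_apply_le φ _).trans hrs.le
    _ = ε := by ring

end

section

variable {A : Type u} [NonUnitalCStarAlgebra A] [PartialOrder A] [StarOrderedRing A]

theorem cut_nonneg (c : A) (ε : ℝ) : 0 ≤ cut c ε :=
  cfcₙ_nonneg fun _ _ => le_max_right _ _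

theorem norm_cut_sub_le {c : A} (hc : 0 ≤ c) {ε : ℝ} (hε : 0 < ε) : ‖cut c ε - c‖ ≤ ε := by
  have hf : Continuous (fun t : ℝ => max (t - ε) 0) := by fun_prop
  have hf0 : (fun t : ℝ => max (t - ε) 0) 0 = 0 := by
    simp only [zero_sub]; exact max_eq_right (by linarith)
  have h1 : cut c ε - c = cfcₙ (fun t : ℝ => max (t - ε) 0 - t) c := by
    rw [cut, cfcₙ_sub (fun t : ℝ => max (t - ε) 0) (fun t => t) c hf.continuousOn hf0
      (by fun_prop) rfl, cfcₙ_id' ℝ c]
  rw [h1]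
  refine norm_cfcₙ_le fun t ht => ?_
  have ht0 : 0 ≤ t := quasispectrum_nonneg_of_nonneg c hc t ht
  rw [Real.norm_eq_abs, abs_le]
  rcases le_total t ε with h | h
  · rw [max_eq_right (by linarith)]; constructor <;> linarith
  · rw [max_eq_left (by linarith)]; constructor <;> linarith

/-- if `c` is small wherever `u` dies, a cut of `c` is in the ideal of `u` -/
theorem inId_cut {u c : A} (hc : 0 ≤ c) {ε ε' : ℝ} (h : NormMod {u} c ε) (hε : 0 < ε')
    (hεε : ε ≤ ε') : InId u (cut c ε') := by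
  obtain ⟨J, hJ, hJ'⟩ := isClosedIdeal_inId u
  obtain ⟨B, i1, i2, i3, φ, hφ, hk⟩ := hJ.quot
  have hu : φ u = 0 := (hk u).2 ((hJ' u).2 (InId.refl u))
  have hn : ‖φ c‖ ≤ ε' := (h B i1 φ (by simpa using hu)).trans hεε
  have hf : Continuous (fun t : ℝ => max (t - ε') 0) := by fun_prop
  have hf0 : (fun t : ℝ => max (t - ε') 0) 0 = 0 := by
    simp only [zero_sub]; exact max_eq_right (by linarith)
  have hφc : 0 ≤ φ c := by
    have h1 : c = star (CFC.sqrt c) * CFC.sqrt c := by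
      rw [(IsSelfAdjoint.of_nonneg (CFC.sqrt_nonneg c)).star_eq, CFC.sqrt_mul_sqrt_self c hc]
    rw [h1, map_mul, map_star]
    exact star_mul_self_nonneg _
  rw [← hJ', ← hk]
  have h2 : φ (cfcₙ (fun t : ℝ => max (t - ε') 0) c) =
      cfcₙ (fun t : ℝ => max (t - ε') 0) (φ c) :=
    NonUnitalStarAlgHomClass.map_cfcₙ φ _ c (hf := hf.continuousOn) (hf₀ := hf0)
      (hφ := map_continuous φ) (ha := IsSelfAdjoint.of_nonneg hc)
      (hφa := IsSelfAdjoint.of_nonneg hφc)
  rw [cut, h2, ← norm_le_zero_iff]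
  refine norm_cfcₙ_le fun t ht => ?_
  have h3 : ‖t‖ ≤ ‖φ c‖ := by
    have := norm_apply_le_norm_cfcₙ (fun x : ℝ => x) (φ c) ht
    rwa [cfcₙ_id' ℝ (φ c)] at this
  have h4 : t ≤ ε' := (le_abs_self t).trans (h3.trans hn)
  rw [max_eq_right (by linarith), norm_zero]

/-- if a cut of `c` dies, `c` is small -/
theorem normMod_of_cut {K : Set A} {c : A} (hc : 0 ≤ c) {ε : ℝ} (hε : 0 < ε) {δ : ℝ}
    (h : NormMod K (cut c ε) δ) : NormMod K c (δ + ε) := by
  intro B i φ hφ
  have h1 : φ c = φ (cut c ε) - φ (cut c ε - c) := by rw [map_sub]; abel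
  rw [h1]
  refine (norm_sub_le _ _).trans (add_le_add (h B i φ hφ) ?_)
  exact (NonUnitalStarAlgHom.norm_apply_le φ _).trans (norm_cut_sub_le hc hε)

omit [PartialOrder A] [StarOrderedRing A] in
theorem normMod_zero_of_inId {K : Set A} {u y : A} (h : InId u y)
    (hu : NormMod K u 0) : NormMod K y 0 := by
  intro B i φ hφ
  refine le_of_forall_pos_le_add fun ε hε => ?_
  obtain ⟨δ, hδ, h1⟩ := normMod_inId h hε
  rw [zero_add]
  exact h1 K (hu.mono hδ.le) B i φ hφ

/-- a selfadjoint local unit for `y` which lies in `y * A` -/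
theorem local_unit {y : A} (hy : 0 ≤ y) {ε : ℝ} (hε : 0 < ε) :
    ∃ e : A, star e = e ∧ ‖e‖ ≤ 1 ∧ (∃ w, e = y * w) ∧ ‖y * e - y‖ ≤ ε ∧ ‖e * y - y‖ ≤ ε := by
  set g : ℝ → ℝ := fun t => t / (max t ε) ^ 2 with hg
  have hpos : ∀ t : ℝ, 0 < (max t ε) ^ 2 := fun t => by
    have : ε ≤ max t ε := le_max_right _ _
    positivity
  have hgc : Continuous g := Continuous.div continuous_id (by fun_prop) fun s => (hpos s).ne'
  have hg0 : g 0 = 0 := by simp only [hg, zero_div]
  set f : ℝ → ℝ := fun t => t * g t with hf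
  have hfc : Continuous f := continuous_id.mul hgc
  have hf0 : f 0 = 0 := by simp only [hf, zero_mul]
  have hff : ∀ t : ℝ, 0 ≤ t → 0 ≤ f t ∧ f t ≤ 1 := by
    intro t ht
    have h1 : f t = (t / max t ε) ^ 2 := by simp only [hf, hg]; ring
    have h2 : 0 < max t ε := lt_of_lt_of_le hε (le_max_right _ _)
    have h3 : t / max t ε ≤ 1 := by rw [div_le_one h2]; exact le_max_left _ _
    have h4 : 0 ≤ t / max t ε := by positivity
    rw [h1]
    exact ⟨by positivity, by nlinarith⟩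
  set e : A := cfcₙ f y with he
  have hes : star e = e := (cfcₙ_predicate (p := IsSelfAdjoint) f y).star_eq
  have h1 : y * e = cfcₙ (fun t => t * f t) y := by
    rw [cfcₙ_mul (fun x : ℝ => x) f y (by fun_prop) rfl hfc.continuousOn hf0, cfcₙ_id' ℝ y]
  have h2 : ‖y * e - y‖ ≤ ε := by
    have e1 : y * e - y = cfcₙ (fun t => t * f t - t) y := by
      rw [cfcₙ_sub (fun t => t * f t) (fun t => t) y
        (continuous_id.mul hfc).continuousOn (by simp) (by fun_prop) rfl, cfcₙ_id' ℝ y, h1]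
    rw [e1]
    refine norm_cfcₙ_le fun t ht => ?_
    have ht0 : 0 ≤ t := quasispectrum_nonneg_of_nonneg y hy t ht
    obtain ⟨f1, f2⟩ := hff t ht0
    rw [Real.norm_eq_abs, abs_le]
    rcases le_total t ε with h | h
    · constructor <;> nlinarith
    · have ht1 : t ≠ 0 := by
        have : 0 < t := lt_of_lt_of_le hε h
        exact this.ne'
      have h4 : f t = 1 := by
        simp only [hf, hg, max_eq_left h]; field_simp
      rw [h4]; constructor <;> linarith
  have hys : star y = y := (IsSelfAdjoint.of_nonneg hy).star_eq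
  refine ⟨e, hes, ?_, ⟨cfcₙ g y, ?_⟩, h2, ?_⟩
  · refine norm_cfcₙ_le fun t ht => ?_
    have ht0 : 0 ≤ t := quasispectrum_nonneg_of_nonneg y hy t ht
    obtain ⟨f1, f2⟩ := hff t ht0
    rw [Real.norm_of_nonneg f1]
    exact f2
  · rw [he, hf, cfcₙ_mul (fun x : ℝ => x) g y (by fun_prop) rfl hgc.continuousOn hg0,
      cfcₙ_id' ℝ y]
  · rw [← norm_star, star_sub, star_mul, hes, hys]
    exact h2

/-- the square root is in the closed right ideal -/
theorem sqrt_mem_RI {z : A} (hz : 0 ≤ z) : CFC.sqrt z ∈ RI z := by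
  have hqs : star (CFC.sqrt z) = CFC.sqrt z :=
    (IsSelfAdjoint.of_nonneg (CFC.sqrt_nonneg z)).star_eq
  refine mem_RI.2 fun ε hε => ?_
  obtain ⟨G, hG⟩ := approx_unit (CFC.sqrt z) hε
  refine ⟨CFC.sqrt z * G, ?_⟩
  have h1 : CFC.sqrt z * (star (CFC.sqrt z) * CFC.sqrt z * G) = z * (CFC.sqrt z * G) := by
    rw [hqs]
    calc _ = (CFC.sqrt z * CFC.sqrt z) * (CFC.sqrt z * G) := by simp only [mul_assoc]
      _ = _ := by rw [CFC.sqrt_mul_sqrt_self z hz]
  rwa [h1] at hG

theorem self_mem_RI {z : A} (hz : 0 ≤ z) : z ∈ RI z := by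
  have := RI.mul (sqrt_mem_RI hz) (CFC.sqrt z)
  rwa [CFC.sqrt_mul_sqrt_self z hz] at this

/-- a summand of an orthogonal sum is in the closed right ideal of the sum -/
theorem mem_RI_sum {κ : Type} [Fintype κ] [DecidableEq κ] {z : κ → A} (hz : ∀ k, 0 ≤ z k)
    (ho : ∀ k l, k ≠ l → z k * z l = 0) (k : κ) : z k ∈ RI (∑ l, z l) := by
  have hs : star (z k) = z k := (IsSelfAdjoint.of_nonneg (hz k)).star_eq
  have h1 : (∑ l, z l) * z k = z k * z k := by
    rw [Finset.sum_mul, Finset.sum_eq_single k]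
    · intro l _ hl; exact ho l k hl
    · intro h; exact absurd (Finset.mem_univ _) h
  refine mem_RI.2 fun ε hε => ?_
  obtain ⟨G, hG⟩ := approx_unit (z k) hε
  refine ⟨z k * (z k * G), ?_⟩
  have h2 : (∑ l, z l) * (z k * (z k * G)) = z k * (star (z k) * z k * G) := by
    rw [← mul_assoc, h1, hs]; simp only [mul_assoc]
  rwa [h2]

/-- summands of a sum of two orthogonal elements -/
theorem mem_RI_add_left {x y : A} (hx : 0 ≤ x) (hyx : y * x = 0) : x ∈ RI (x + y) := by
  have hs : star x = x := (IsSelfAdjoint.of_nonneg hx).star_eq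
  refine mem_RI.2 fun ε hε => ?_
  obtain ⟨G, hG⟩ := approx_unit x hε
  refine ⟨x * (x * G), ?_⟩
  have h2 : (x + y) * (x * (x * G)) = x * (star x * x * G) := by
    rw [hs, add_mul, ← mul_assoc y, hyx, zero_mul, add_zero]; simp only [mul_assoc]
  rwa [h2]

end

end Vale.Agent.P133.R2.H28
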