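import Vale.Agent.P133.R2.H28.Defs
import Mathlib.Topology.Algebra.NonUnitalStarAlgebra

/-!
P133 (helper28): definitions for the classes of C*-algebras in the result on orthogonal sums.
-/

open scoped ComplexOrder

namespace Vale.Agent.P133.R2.H28

open Vale.Agent.P133.H832 Vale.Agent.P133.H681

universe u

/-- There are `T` positive elements `c t`, all of whose multiples are Cuntz below `a`, such that
`(a - δ)₊` is in the closed ideal generated by their sum. -/
def Cover {A : Type u} [NonUnitalCStarAlgebra A] [PartialOrder A] [StarOrderedRing A]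
    (T : ℕ) (a : A) (δ : ℝ) : Prop :=
  ∃ c : Fin T → A, (∀ t, 0 ≤ c t) ∧ (∀ t, AllBelow a (c t)) ∧ InId (∑ t, c t) (cut a δ)

/-- For every `a ≥ 0` and `δ > 0` there are `x` in `Her a` and a set `S` of elements which commute
with `x`, with each other and with the adjoints of these, such that `Her (a - δ)₊` is contained in
the C*-algebra generated by `x` and `S` (for example, `S` is empty, or `S` consists of central
elements). -/
def LocGen (A : Type u) [NonUnitalCStarAlgebra A] [PartialOrder A] [StarOrderedRing A] : Prop :=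
  ∀ a : A, 0 ≤ a → ∀ δ : ℝ, 0 < δ → ∃ x ∈ Her a, ∃ S : Set A,
    (∀ s ∈ S, ∀ t ∈ insert x S, s * t = t * s ∧ s * star t = star t * s) ∧
      Her (cut a δ) ⊆ (NonUnitalStarAlgebra.adjoin ℂ (insert x S)).topologicalClosure

/-- For every `a ≥ 0` and `δ > 0` there are countably many closed ideals without `a` such that
every closed ideal without `(a - δ)₊` is contained in one of them. -/
def LocCount (A : Type u) [NonUnitalCStarAlgebra A] [PartialOrder A] [StarOrderedRing A] : Prop :=
  ∀ a : A, 0 ≤ a → ∀ δ : ℝ, 0 < δ → ∃ S : Set (Submodule ℂ A), S.Countable ∧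
    (∀ M ∈ S, IsClosedIdeal M ∧ a ∉ M) ∧
      ∀ P : Submodule ℂ A, IsClosedIdeal P → cut a δ ∉ P → ∃ M ∈ S, P ≤ M

end Vale.Agent.P133.R2.H28
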