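import Vale.Agent.P133.R2.H28.Conv
import Vale.Agent.P133.H832.LInf

/-!
P133 (helper28): evaluation maps of bounded products.
-/

open scoped ComplexOrder ENNReal

namespace Vale.Agent.P133.R2.H28

open Vale.Agent.P133 Vale.Agent.P133.Statement Vale.Agent.P133.H832 Vale.Agent.P133F
  Vale.Agent.P133.H681

universe u

section

variable {A B : Type u} [NonUnitalCStarAlgebra A] [PartialOrder A] [StarOrderedRing A]
    [NonUnitalCStarAlgebra B] [PartialOrder B] [StarOrderedRing B]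

theorem map_nonneg' (φ : A →⋆ₙₐ[ℂ] B) {a : A} (ha : 0 ≤ a) : 0 ≤ φ a := by
  have h1 : a = star (CFC.sqrt a) * CFC.sqrt a := by
    rw [(IsSelfAdjoint.of_nonneg (CFC.sqrt_nonneg a)).star_eq, CFC.sqrt_mul_sqrt_self a ha]
  rw [h1, map_mul, map_star]
  exact star_mul_self_nonneg _

theorem infB_map (φ : A →⋆ₙₐ[ℂ] B) {a c : A} (h : InfB a c) : InfB (φ a) (φ c) := by
  refine ⟨map_nonneg' φ h.1, fun m ε hε => ?_⟩
  obtain ⟨r, hr⟩ := h.2 m ε hε
  refine ⟨fun i => φ (r i), fun i j => ?_⟩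
  refine lt_of_le_of_lt ?_ (hr i j)
  have h1 : star (φ (r i)) * φ a * φ (r j) - (if i = j then φ c else 0) =
      φ (star (r i) * a * r j - (if i = j then c else 0)) := by
    rw [map_sub, map_mul, map_mul, map_star]
    split_ifs
    · rfl
    · rw [map_zero]
  rw [h1]
  exact NonUnitalStarAlgHom.norm_apply_le φ _

theorem cut_map (φ : A →⋆ₙₐ[ℂ] B) {a : A} (ha : 0 ≤ a) {δ : ℝ} (hδ : 0 ≤ δ) :
    φ (cut a δ) = cut (φ a) δ := by
  have hf : Continuous (fun t : ℝ => max (t - δ) 0) := by fun_prop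
  have hf0 : (fun t : ℝ => max (t - δ) 0) 0 = 0 := by
    simp only [zero_sub]; exact max_eq_right (by linarith)
  exact NonUnitalStarAlgHomClass.map_cfcₙ φ _ a (hf := hf.continuousOn) (hf₀ := hf0)
    (hφ := map_continuous φ) (ha := IsSelfAdjoint.of_nonneg ha)
    (hφa := IsSelfAdjoint.of_nonneg (map_nonneg' φ ha))

end

section

variable {A : ℕ → Type u} [∀ k, NonUnitalCStarAlgebra (A k)]

/-- the evaluation at `k` -/
def ev (k : ℕ) : lp A ∞ →⋆ₙₐ[ℂ] A k where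
  toFun f := f k
  map_smul' l f := by rw [lp.coeFn_smul]; rfl
  map_zero' := by rw [lp.coeFn_zero]; rfl
  map_add' f g := by rw [lp.coeFn_add]; rfl
  map_mul' f g := lp_mul_apply f g k
  map_star' f := by rw [lp.coeFn_star]; rfl

theorem ev_apply (k : ℕ) (f : lp A ∞) : ev k f = f k := rfl

variable [∀ k, PartialOrder (A k)] [∀ k, StarOrderedRing (A k)] [PartialOrder (lp A ∞)]
  [StarOrderedRing (lp A ∞)]

theorem exists_lp (b : ∀ k, A k) (h0 : ∀ k, 0 ≤ b k) (h1 : ∀ k, ‖b k‖ ≤ 1) :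
    ∃ f : lp A ∞, 0 ≤ f ∧ ∀ k, f k = b k := by
  have h2 : ∀ k, ‖CFC.sqrt (b k)‖ ≤ 1 := by
    intro k
    have h3 : ‖CFC.sqrt (b k)‖ * ‖CFC.sqrt (b k)‖ = ‖b k‖ := by
      rw [← CStarRing.norm_star_mul_self,
        (IsSelfAdjoint.of_nonneg (CFC.sqrt_nonneg (b k))).star_eq,
        CFC.sqrt_mul_sqrt_self (b k) (h0 k)]
    nlinarith [norm_nonneg (CFC.sqrt (b k)), h1 k]
  let s : lp A ∞ := ⟨fun k => CFC.sqrt (b k), memℓp_infty ⟨1, by
    rintro _ ⟨k, rfl⟩; exact h2 k⟩⟩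
  refine ⟨star s * s, star_mul_self_nonneg _, fun k => ?_⟩
  rw [lp_mul_apply, lp.coeFn_star]
  show star (CFC.sqrt (b k)) * CFC.sqrt (b k) = b k
  rw [(IsSelfAdjoint.of_nonneg (CFC.sqrt_nonneg (b k))).star_eq,
    CFC.sqrt_mul_sqrt_self (b k) (h0 k)]

end

end Vale.Agent.P133.R2.H28
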