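import Vale.Agent.P133.R2.H28.Conv
import Vale.Agent.P133.H681.Generic2

/-!
P133 (helper28): a normalisation of positive elements.
-/

open scoped ComplexOrder

namespace Vale.Agent.P133.R2.H28

open Vale.Agent.P133 Vale.Agent.P133.Statement Vale.Agent.P133.H832 Vale.Agent.P133F
  Vale.Agent.P133.H681

universe u

variable {A : Type u} [NonUnitalCStarAlgebra A] [PartialOrder A] [StarOrderedRing A]

theorem normalize {a : A} (ha : 0 ≤ a) {δ : ℝ} (hδ : 0 < δ) : ∃ b : A, 0 ≤ b ∧ ‖b‖ ≤ 1 ∧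
    InId (cut b (1 / 2)) (cut a δ) ∧ ∀ c : A, InfB b c → InfB a c := by
  have hm : ∀ t : ℝ, 0 < max (t * t) (δ * δ) := fun t =>
    lt_of_lt_of_le (by positivity) (le_max_right _ _)
  set k : ℝ → ℝ := fun t => t / max (t * t) (δ * δ) with hk
  have hkc : Continuous k := Continuous.div (by fun_prop) (by fun_prop) fun t => (hm t).ne'
  have hk0 : k 0 = 0 := by simp [hk]
  set g : ℝ → ℝ := fun t => t * k t with hg
  have hgc : Continuous g := continuous_id.mul hkc
  have hg0 : g 0 = 0 := by simp [hg]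
  have hgt : ∀ t, g t = (t * t) / max (t * t) (δ * δ) := fun t => by
    simp only [hg, hk]; ring
  have hg1 : ∀ t, 0 ≤ g t := fun t => by
    rw [hgt]; exact div_nonneg (mul_self_nonneg t) (hm t).le
  have hg2 : ∀ t, g t ≤ 1 := fun t => by
    rw [hgt, div_le_one (hm t)]; exact le_max_left _ _
  have hb0 : 0 ≤ cfcₙ g a := cfcₙ_nonneg fun t _ => hg1 t
  refine ⟨cfcₙ g a, hb0, norm_cfcₙ_le fun t _ => ?_, ?_, fun c hc => ?_⟩
  · rw [Real.norm_of_nonneg (hg1 t)]; exact hg2 t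
  · refine inId_cut ha (ε := δ) ?_ hδ le_rfl
    intro B i φ hφ
    have h1 : ‖φ (cfcₙ g a)‖ ≤ 0 + 1 / 2 :=
      normMod_of_cut (K := {cut (cfcₙ g a) (1 / 2)}) hb0 (by norm_num)
        (normMod_singleton (InId.refl _)) B i φ hφ
    have hsa : IsSelfAdjoint (φ a) := by
      show star (φ a) = φ a
      rw [← map_star, (IsSelfAdjoint.of_nonneg ha).star_eq]
    have h2 : φ (cfcₙ g a) = cfcₙ g (φ a) :=
      NonUnitalStarAlgHomClass.map_cfcₙ φ _ a (hf := hgc.continuousOn) (hf₀ := hg0)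
        (hφ := AddMonoidHomClass.continuous_of_bound φ 1 fun x => by
          rw [one_mul]; exact NonUnitalStarAlgHom.norm_apply_le φ x)
        (ha := IsSelfAdjoint.of_nonneg ha) (hφa := hsa)
    rw [h2] at h1
    have h4 : ‖cfcₙ (fun x : ℝ => x) (φ a)‖ ≤ δ := by
      refine norm_cfcₙ_le fun t ht => ?_
      have h3 : ‖g t‖ ≤ ‖cfcₙ g (φ a)‖ :=
        norm_apply_le_norm_cfcₙ g (φ a) ht (hf := hgc.continuousOn) (hf₀ := hg0) (ha := hsa)
      rw [Real.norm_of_nonneg (hg1 t)] at h3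
      have h5 : (t * t) / max (t * t) (δ * δ) ≤ 1 / 2 := by rw [← hgt]; linarith
      rw [div_le_iff₀ (hm t)] at h5
      rw [Real.norm_eq_abs]
      refine abs_le_of_sq_le_sq (by
        rcases le_total (t * t) (δ * δ) with h6 | h6
        · nlinarith
        · rw [max_eq_left h6] at h5
          nlinarith) hδ.le
    rwa [cfcₙ_id' ℝ (φ a)] at h4
  · refine infB_mono hb0 ha ?_ hc
    refine subset_closure ⟨cfcₙ k a, ?_⟩
    show a * cfcₙ k a = cfcₙ g a
    rw [hg, cfcₙ_mul (fun x : ℝ => x) k a (by fun_prop) rfl hkc.continuousOn hk0, cfcₙ_id' ℝ a]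

end Vale.Agent.P133.R2.H28
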