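import Vale.Agent.P133.R2.H28.Cover
import Vale.Agent.P133.R2.H28.Cases
import Vale.Agent.P133.R2.H28.Ev
import Vale.Agent.P133.R2.H28.Normalize
import Vale.Agent.P133.R2.H966.Lp

/-!
P133 (helper28; the theorem is due to helper786): the number of elements in the cover of a
positive element of a weakly purely infinite C*-algebra depends only on the constant `n`.
-/

open scoped ComplexOrder ENNReal

namespace Vale.Agent.P133.R2.H28

open Vale.Agent.P133 Vale.Agent.P133.Statement Vale.Agent.P133.H832 Vale.Agent.P133F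
  Vale.Agent.P133.H681

universe u

theorem covers_of_infB {A : Type u} [NonUnitalCStarAlgebra A] [PartialOrder A]
    [StarOrderedRing A] {T : ℕ} {a b : A} {δ : ℝ} (hab : ∀ c : A, InfB b c → InfB a c)
    {c : Fin T → A} (h0 : ∀ t, 0 ≤ c t) (h1 : ∀ t, InfB b (c t))
    (h2 : InId (∑ t, c t) (cut a δ)) : Cover T a δ :=
  ⟨c, h0, fun t => allBelow_of_infB (hab _ (h1 t)), h2⟩

theorem inId_map {A B : Type u} [NonUnitalCStarAlgebra A] [NonUnitalCStarAlgebra B]
    (φ : A →⋆ₙₐ[ℂ] B) {x y : A} (h : InId x y) : InId (φ x) (φ y) := by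
  intro ε hε
  obtain ⟨m, r, s, h1⟩ := h ε hε
  refine ⟨m, fun k => φ (r k), fun k => φ (s k), ?_⟩
  refine lt_of_le_of_lt ?_ h1
  rw [show ∑ k, φ (r k) * φ x * φ (s k) - φ y = φ (∑ k, r k * x * s k - y) by
    rw [map_sub, map_sum]; simp only [map_mul]]
  exact NonUnitalStarAlgHom.norm_apply_le φ _

/-- For every `n` there is a number `T` such that in every C*-algebra which is weakly purely
infinite with constant `n` every `(a - δ)₊` is covered by `T` elements all of whose multiples are
below `a`. -/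
theorem colours (n : ℕ) : ∃ T : ℕ, ∀ (A : Type u) [NonUnitalCStarAlgebra A] [PartialOrder A]
    [StarOrderedRing A], WPI A n → ∀ a : A, 0 ≤ a → ∀ δ : ℝ, 0 < δ → Cover T a δ := by
  by_contra hcon
  push Not at hcon
  choose A i1 i2 i3 hA a ha δ hδ hn using hcon
  choose b hb hb1 hbc hbB using fun k => normalize (ha k) (hδ k)
  let _ : PartialOrder (lp A ∞) := CStarAlgebra.spectralOrder _
  have _ : StarOrderedRing (lp A ∞) := CStarAlgebra.spectralOrderedRing _
  obtain ⟨f, hf, hfb⟩ := exists_lp b hb hb1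
  obtain ⟨T, c, hc, hcB, hcI⟩ := cover (H966.wpi_lp hA) hf (δ := 1 / 2) (by norm_num)
  have hev : ev T f = b T := by rw [ev_apply, hfb]
  refine hn T (covers_of_infB (hbB T) (c := fun t => ev T (c t)) (fun t => ?_) (fun t => ?_) ?_)
  · exact (infB_map (ev T) (hcB t)).1
  · rw [← hev]
    exact infB_map (ev T) (hcB t)
  · have h1 := inId_map (ev T) hcI
    rw [map_sum, cut_map (ev T) hf (by norm_num), hev] at h1
    exact h1.trans (hbc T)

end Vale.Agent.P133.R2.H28
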