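import Vale.Agent.P133.R2.H28.Iter
import Vale.Agent.P133.R2.H474.NS4

/-!
P133 (helper28): in a purely infinite C*-algebra every hereditary subalgebra contains elements
which are nowhere scalar.
-/

open scoped ComplexOrder

namespace Vale.Agent.P133.R2.H28

open Vale.Agent.P133 Vale.Agent.P133.Statement Vale.Agent.P133.H832 Vale.Agent.P133F
  Vale.Agent.P133.H681

universe u

section

variable {A : Type u} [NonUnitalCStarAlgebra A] [PartialOrder A] [StarOrderedRing A]

theorem cut_mem_of_norm {P : Submodule ℂ A} {a : A} (ha : 0 ≤ a)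
    {δ : ℝ} (hδ : 0 < δ) {B : Type u} [NonUnitalCStarAlgebra B] [PartialOrder B]
    [StarOrderedRing B] (φ : A →⋆ₙₐ[ℂ] B)
    (hk : ∀ x, φ x = 0 ↔ x ∈ P) (h : ‖φ a‖ ≤ δ) :
    cfcₙ (fun t : ℝ => max (t - δ) 0) a ∈ P := by
  have hf : Continuous (fun t : ℝ => max (t - δ) 0) := by fun_prop
  have hf0 : (fun t : ℝ => max (t - δ) 0) 0 = 0 := by
    simp only [zero_sub]; exact max_eq_right (by linarith)
  have hφa : 0 ≤ φ a := by
    have h1 : a = star (CFC.sqrt a) * CFC.sqrt a := by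
      rw [(IsSelfAdjoint.of_nonneg (CFC.sqrt_nonneg a)).star_eq, CFC.sqrt_mul_sqrt_self a ha]
    rw [h1, map_mul, map_star]
    exact star_mul_self_nonneg _
  have h2 : φ (cfcₙ (fun t : ℝ => max (t - δ) 0) a) =
      cfcₙ (fun t : ℝ => max (t - δ) 0) (φ a) :=
    NonUnitalStarAlgHomClass.map_cfcₙ φ _ a (hf := hf.continuousOn) (hf₀ := hf0)
      (hφ := map_continuous φ) (ha := IsSelfAdjoint.of_nonneg ha)
      (hφa := IsSelfAdjoint.of_nonneg hφa)
  rw [← hk, h2, ← norm_le_zero_iff]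
  refine norm_cfcₙ_le fun t ht => ?_
  have h3 : ‖t‖ ≤ ‖φ a‖ := by
    have := norm_apply_le_norm_cfcₙ (fun x : ℝ => x) (φ a) ht
    rwa [cfcₙ_id' ℝ (φ a)] at this
  have h4 : t ≤ δ := (le_abs_self t).trans (h3.trans h)
  rw [max_eq_right (by linarith), norm_zero]

theorem sqrt_conj_her {a : A} (ha : 0 ≤ a) (w : A) :
    CFC.sqrt a * w * CFC.sqrt a ∈ closure (Set.range fun w => a * w * a) := by
  have hqs : star (CFC.sqrt a) = CFC.sqrt a :=
    (IsSelfAdjoint.of_nonneg (CFC.sqrt_nonneg a)).star_eq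
  have hc : Continuous fun y : A => y * w * star y := by fun_prop
  have h1 := map_mem_closure (f := fun y : A => y * w * star y)
    (t := Set.range fun w => a * w * a) hc (sqrt_mem_RI ha) (by
      rintro _ ⟨v, rfl⟩
      refine ⟨v * w * star v, ?_⟩
      show a * (v * w * star v) * a = (a * v) * w * star (a * v)
      rw [star_mul, (IsSelfAdjoint.of_nonneg ha).star_eq]
      simp only [mul_assoc])
  have h2 : CFC.sqrt a * w * star (CFC.sqrt a) ∈ closure (Set.range fun w => a * w * a) := h1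
  rwa [hqs] at h2

theorem nowhere_scalar_of_eltPI (hA : EltPI A) {a : A} (ha : 0 ≤ a) {δ : ℝ} (hδ : 0 < δ) :
    ∃ d : A, IsSelfAdjoint d ∧ d ∈ closure (Set.range fun w => a * w * a) ∧
      ∀ P : Submodule ℂ A, IsClosedIdeal P → cfcₙ (fun t : ℝ => max (t - δ) 0) a ∉ P →
        ∀ l : ℝ, d * a - l • a ∉ P := by
  obtain ⟨x, y, hx, hy, hxy⟩ := hA a ha (δ / 4) (by positivity)
  set q : A := CFC.sqrt a with hq
  have hqs : star q = q := (IsSelfAdjoint.of_nonneg (CFC.sqrt_nonneg a)).star_eq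
  have hqq : q * q = a := CFC.sqrt_mul_sqrt_self a ha
  refine ⟨q * (x * star x) * q, ?_, sqrt_conj_her ha _, fun P hP hc l hl => hc ?_⟩
  · have h1 : q * (x * star x) * q = (q * x) * star (q * x) := by
      rw [star_mul, hqs]; simp only [mul_assoc]
    rw [h1]
    exact IsSelfAdjoint.mul_star_self _
  obtain ⟨B, i1, i2, i3, φ, hφ, hk⟩ := hP.quot
  refine cut_mem_of_norm ha hδ φ hk ?_
  by_contra hcon
  push Not at hcon
  set Q : B := φ q with hQ
  set X : B := φ x with hX
  set Y : B := φ y with hY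
  have hQs : star Q = Q := by rw [hQ, ← map_star, hqs]
  have hQQ : Q * Q = φ a := by rw [hQ, ← map_mul, hqq]
  set D : B := Q * (X * star X) * Q with hD
  have hDs : star D = D := by
    rw [hD, star_mul, star_mul, star_mul, star_star, hQs]; simp only [mul_assoc]
  have hDa : D * φ a = l • φ a := by
    have h1 := (hk _).2 hl
    rw [map_sub, sub_eq_zero] at h1
    have h2 : φ (l • a) = l • φ a := by
      rw [← Complex.coe_smul, map_smul, Complex.coe_smul]
    rw [h2, map_mul, map_mul, map_mul, map_mul, map_star] at h1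
    exact h1
  have hDQ : D * Q = l • Q := by
    have h2 : (D * Q - l • Q) * Q = 0 := by
      rw [sub_mul, mul_assoc, hQQ, smul_mul_assoc, hQQ, hDa, sub_self]
    have h1 : (D * Q - l • Q) * star (D * Q - l • Q) = 0 := by
      have h3 : star (D * Q - l • Q) = Q * D - l • Q := by
        rw [star_sub, star_mul, hDs, hQs, star_smul, star_trivial, hQs]
      rw [h3, mul_sub, ← mul_assoc, h2, mul_smul_comm, h2, zero_mul, smul_zero, sub_zero]
    have h3 := CStarRing.mul_star_self_eq_zero_iff _ |>.1 h1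
    exact sub_eq_zero.1 h3
  set M1 : B := Q * X with hM1
  set M2 : B := Q * Y with hM2
  have hDM : D = M1 * star M1 := by
    rw [hD, hM1, star_mul, hQs]; simp only [mul_assoc]
  have hD1 : D * M1 = l • M1 := by rw [hM1, ← mul_assoc, hDQ, smul_mul_assoc]
  have hD2 : D * M2 = l • M2 := by rw [hM2, ← mul_assoc, hDQ, smul_mul_assoc]
  have key : ∀ u v : A, star (Q * φ u) * (Q * φ v) = φ (star u * a * v) := by
    intro u v
    rw [map_mul, map_mul, map_star, ← hQQ, star_mul, hQs]; simp only [mul_assoc]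
  have n1 : ‖star M1 * M1 - φ a‖ ≤ δ / 4 := by
    rw [hM1, hX, key, ← map_sub]
    exact (NonUnitalStarAlgHom.norm_apply_le φ _).trans hx.le
  have n2 : ‖star M2 * M2 - φ a‖ ≤ δ / 4 := by
    rw [hM2, hY, key, ← map_sub]
    exact (NonUnitalStarAlgHom.norm_apply_le φ _).trans hy.le
  have n3 : ‖star M1 * M2‖ ≤ δ / 4 := by
    rw [hM1, hM2, hX, hY, key]
    exact (NonUnitalStarAlgHom.norm_apply_le φ _).trans hxy.le
  have e1 : (star M1 * M1) * (star M1 * M1) = l • (star M1 * M1) := by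
    calc _ = star M1 * ((M1 * star M1) * M1) := by simp only [mul_assoc]
      _ = _ := by rw [← hDM, hD1, mul_smul_comm]
  have e2 : star (star M1 * M2) * (star M1 * M2) = l • (star M2 * M2) := by
    calc _ = star M2 * ((M1 * star M1) * M2) := by
          rw [star_mul, star_star]; simp only [mul_assoc]
      _ = _ := by rw [← hDM, hD2, mul_smul_comm]
  have f1 : ‖star M1 * M1‖ * ‖star M1 * M1‖ = |l| * ‖star M1 * M1‖ := by
    have h1 := congrArg norm e1
    rw [norm_smul, Real.norm_eq_abs] at h1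
    rw [← h1]
    have h2 : star (star M1 * M1) = star M1 * M1 := by rw [star_mul, star_star]
    have h3 := CStarRing.norm_star_mul_self (x := star M1 * M1)
    rw [h2] at h3
    exact h3.symm
  have f2 : ‖star M1 * M2‖ * ‖star M1 * M2‖ = |l| * ‖star M2 * M2‖ := by
    have h1 := congrArg norm e2
    rw [norm_smul, Real.norm_eq_abs, CStarRing.norm_star_mul_self] at h1
    exact h1
  have g1 : 3 * δ / 4 < ‖star M1 * M1‖ := by
    have h1 : ‖φ a‖ ≤ ‖star M1 * M1‖ + ‖star M1 * M1 - φ a‖ := by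
      have h2 : φ a = star M1 * M1 - (star M1 * M1 - φ a) := by abel
      calc ‖φ a‖ = ‖star M1 * M1 - (star M1 * M1 - φ a)‖ := by rw [← h2]
        _ ≤ _ := norm_sub_le _ _
    linarith
  have g2 : 3 * δ / 4 < ‖star M2 * M2‖ := by
    have h1 : ‖φ a‖ ≤ ‖star M2 * M2‖ + ‖star M2 * M2 - φ a‖ := by
      have h2 : φ a = star M2 * M2 - (star M2 * M2 - φ a) := by abel
      calc ‖φ a‖ = ‖star M2 * M2 - (star M2 * M2 - φ a)‖ := by rw [← h2]
        _ ≤ _ := norm_sub_le _ _
    linarith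
  have g3 : ‖star M1 * M1‖ = |l| := by
    have h1 : ‖star M1 * M1‖ ≠ 0 := by
      have : 0 < ‖star M1 * M1‖ := by linarith
      exact this.ne'
    exact mul_right_cancel₀ h1 f1
  rw [g3] at g1
  have g4 : ‖star M1 * M2‖ * ‖star M1 * M2‖ ≤ δ / 4 * (δ / 4) :=
    mul_le_mul n3 n3 (norm_nonneg _) (by positivity)
  have g5 : 3 * δ / 4 * (3 * δ / 4) ≤ |l| * ‖star M2 * M2‖ :=
    mul_le_mul g1.le g2.le (by positivity) (abs_nonneg _)
  nlinarith [f2]

theorem twoOrth_iff : TwoOrth A ↔ ∀ a : A, 0 ≤ a → ∀ δ : ℝ, 0 < δ → ∃ d : A,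
    IsSelfAdjoint d ∧ d ∈ Her a ∧ ∀ P : Submodule ℂ A, IsClosedIdeal P → cut a δ ∉ P →
      ∀ l : ℝ, d * a - l • a ∉ P :=
  forall_congr' fun _ => forall_congr' fun ha =>
    Vale.Agent.P133.R2.H474.orth_iff_nowhere_scalar ha

theorem twoOrth_of_eltPI (hA : EltPI A) : TwoOrth A :=
  twoOrth_iff.2 fun _ ha _ hδ => nowhere_scalar_of_eltPI hA ha hδ

/-- a weakly purely infinite C*-algebra is purely infinite iff every hereditary subalgebra
contains two large orthogonal elements -/
theorem pi_iff_twoOrth (hW : WeaklyPurelyInfinite A) : PurelyInfinite A ↔ TwoOrth A := by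
  obtain ⟨n, hn⟩ := wpi_elementwise hW
  exact ⟨fun h => twoOrth_of_eltPI (eltPI_of A h), fun h => pi_of_twoOrth hn h⟩

end

end Vale.Agent.P133.R2.H28
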