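import Vale.Agent.P133.R2.H28.Base

/-!
P133 (helper28, after a lemma of helper954): rows and the descent of their lengths.
-/

open scoped ComplexOrder

namespace Vale.Agent.P133.R2.H28

open Vale.Agent.P133 Vale.Agent.P133.H832 Vale.Agent.P133F

universe u

section

variable {A : Type u} [NonUnitalCStarAlgebra A] [PartialOrder A] [StarOrderedRing A]

/-- elements of the ideal of `x` are sums of `n` conjugates of `x` -/
theorem row_of_inId {n : ℕ} (hA : WPI A n) {x y : A} (hx : 0 ≤ x) (hy : 0 ≤ y) (h : InId x y)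
    {δ : ℝ} (hδ : 0 < δ) :
    ∃ r : Fin n → A, (∀ i, star (r i) ∈ RI y) ∧ ‖∑ i, star (r i) * x * r i - y‖ ≤ δ := by
  obtain ⟨-, hsub⟩ := subId_of_inId' hx hy h
  obtain ⟨M, t, ht⟩ := hsub (δ / 8) (by positivity)
  set C : ℝ := ∑ k, ‖t k‖ with hC
  have hC0 : 0 ≤ C := Finset.sum_nonneg fun k _ => norm_nonneg _
  obtain ⟨z, hz⟩ := hA x hx M (δ / (8 * (C * C + 1))) (by positivity)
  set s : Fin n → A := fun i => ∑ j, z i j * t j with hs
  have h1 : ∑ i, star (s i) * x * s i =
      ∑ j, ∑ j', star (t j) * (∑ i, star (z i j) * x * z i j') * t j' := by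
    have e1 : ∀ i, star (s i) * x * s i =
        ∑ j, ∑ j', star (t j) * (star (z i j) * x * z i j') * t j' := fun i =>
      star_sum_mul_sum (fun j => z i j) x t t
    simp only [e1]
    rw [Finset.sum_comm]
    refine Finset.sum_congr rfl fun j _ => ?_
    rw [Finset.sum_comm]
    refine Finset.sum_congr rfl fun j' _ => ?_
    rw [Finset.mul_sum, Finset.sum_mul]
  have h2 : ∑ j, ∑ j', star (t j) * (if j = j' then x else 0) * t j' =
      ∑ j, star (t j) * x * t j := by
    refine Finset.sum_congr rfl fun k _ => ?_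
    simp only [mul_ite, ite_mul, mul_zero, zero_mul, Finset.sum_ite_eq, Finset.mem_univ, if_true]
  have h3 := quad_diff t t (fun j j' => ∑ i, star (z i j) * x * z i j')
    (fun j j' => if j = j' then x else 0) (by positivity) (fun j j' => (hz j j').le)
    (le_refl C) (le_refl C)
  rw [h2, ← h1] at h3
  have h5 : C * C * (δ / (8 * (C * C + 1))) ≤ δ / 8 := by
    rw [mul_div_assoc', div_le_div_iff₀ (by positivity) (by norm_num)]
    nlinarith [mul_nonneg hC0 hC0]
  set S : A := ∑ i, star (s i) * x * s i with hS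
  have h6 : ‖S - y‖ ≤ δ / 4 := by
    calc ‖S - y‖ = ‖(S - ∑ j, star (t j) * x * t j) + (∑ j, star (t j) * x * t j - y)‖ := by
          rw [sub_add_sub_cancel]
      _ ≤ δ / 8 + δ / 8 := (norm_add_le _ _).trans (by linarith)
      _ = δ / 4 := by ring
  obtain ⟨e, hes, hen, ⟨w, hw⟩, hye, hey⟩ := local_unit hy (ε := δ / 4) (by positivity)
  refine ⟨fun i => s i * e, fun i => ?_, ?_⟩
  · rw [star_mul, hes, hw, mul_assoc]
    exact RI.mul_self _ _
  · have e1 : ∑ i, star (s i * e) * x * (s i * e) - y =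
        e * (S - y) * e + (e * (y * e - y) + (e * y - y)) := by
      have e2 : ∑ i, star (s i * e) * x * (s i * e) = e * S * e := by
        rw [hS, Finset.mul_sum, Finset.sum_mul]
        refine Finset.sum_congr rfl fun i _ => ?_
        rw [star_mul, hes]; simp only [mul_assoc]
      rw [e2]
      simp only [mul_sub, sub_mul, mul_assoc]
      abel
    rw [e1]
    calc _ ≤ ‖e * (S - y) * e‖ + (‖e * (y * e - y)‖ + ‖e * y - y‖) :=
          (norm_add_le _ _).trans (by gcongr; exact norm_add_le _ _)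
      _ ≤ 1 * (δ / 4) * 1 + (1 * (δ / 4) + δ / 4) := by
          gcongr
          · refine (norm_mul_le _ _).trans ?_
            gcongr
            refine (norm_mul_le _ _).trans ?_
            gcongr
          · refine (norm_mul_le _ _).trans ?_
            gcongr
      _ ≤ δ := by linarith

/-- the statement of the descent of row lengths: sources `X 0, …, X l`, targets `Y t` and rows of
length `l + 1` -/
def CoreProp (c : A) (l : ℕ) (τ : Type) [Fintype τ] : Prop :=
    ∀ (X : Fin (l + 1) → A) (Y : τ → A), (∀ s, 0 ≤ X s) →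
      (∀ s s', s ≠ s' → X s * X s' = 0) → (∀ t, 0 ≤ Y t) →
      (∀ t t', t ≠ t' → Y t * Y t' = 0) → (∀ s, InId (X s) c) →
      (∀ s s', InId (X s) (X s')) → ∀ ε : ℝ, 0 < ε → ∃ δ : ℝ, 0 < δ ∧
      ∀ (K : Set A) (a : τ → Fin (l + 1) → A), (∀ t i, a t i ∈ RI (Y t)) →
        (∀ t i, star (a t i) ∈ RI (X 0)) →
        (∀ t, NormMod K (X 0 - ∑ i, star (a t i) * a t i) δ) →
        ∃ m : A, m ∈ RI (∑ t, Y t) ∧ star m ∈ RI (∑ s, X s) ∧ NormMod (insert m K) c ε

omit [StarOrderedRing A] in
theorem core_zero (c : A) : CoreProp c 0 Unit := by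
  intro X Y hX hXo hY hYo hXc hXX ε hε
  obtain ⟨δ, hδ, h1⟩ := normMod_inId (hXc 0) hε
  refine ⟨δ, hδ, fun K a ha ha' hK => ⟨a () 0, ?_, ?_, ?_⟩⟩
  · have h2 : ∑ t : Unit, Y t = Y () := by simp
    rw [h2]
    exact ha () 0
  · rw [Fin.sum_univ_one]
    exact ha' () 0
  · refine h1 _ fun B i φ hφ => ?_
    have h2 := hK () B i φ fun k hk => hφ k (Set.mem_insert_of_mem _ hk)
    have h3 : φ (a () 0) = 0 := hφ _ (Set.mem_insert _ _)
    rwa [Fin.sum_univ_one, map_sub, map_mul, h3, mul_zero, sub_zero] at h2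

theorem core_succ {n : ℕ} (hA : WPI A n) {c : A} {l : ℕ} {τ : Type} [Fintype τ] [DecidableEq τ]
    (ih : CoreProp c l τ) : CoreProp c (l + 1) (τ × Fin n) := by
  intro X Y hX hXo hY hYo hXc hXX ε hε
  let X' : Fin (l + 1) → A := fun s => X s.succ
  let Y' : τ → A := fun t => ∑ k : Fin n, Y (t, k)
  have hYs : ∀ t, star (Y t) = Y t := fun t => (IsSelfAdjoint.of_nonneg (hY t)).star_eq
  have hXs : ∀ t, star (X t) = X t := fun t => (IsSelfAdjoint.of_nonneg (hX t)).star_eq
  have hX'o : ∀ s s', s ≠ s' → X' s * X' s' = 0 := fun s s' h =>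
    hXo _ _ fun h1 => h (Fin.succ_injective _ h1)
  have hY'0 : ∀ t, 0 ≤ Y' t := fun t => Finset.sum_nonneg fun k _ => hY _
  have hY'o : ∀ t t', t ≠ t' → Y' t * Y' t' = 0 := by
    intro t t' h
    show (∑ k : Fin n, Y (t, k)) * (∑ k : Fin n, Y (t', k)) = 0
    rw [Finset.sum_mul_sum]
    refine Finset.sum_eq_zero fun k _ => Finset.sum_eq_zero fun k' _ => ?_
    refine hYo _ _ fun h1 => h ?_
    exact congrArg Prod.fst h1
  obtain ⟨δ', hδ', hih⟩ := ih X' Y' (fun s => hX _) hX'o hY'0 hY'o (fun s => hXc _)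
    (fun s s' => hXX _ _) ε hε
  obtain ⟨r, hr1, hr2⟩ := row_of_inId hA (hX 0) (hX 1) (hXX 0 1) (δ := δ' / 2) (by positivity)
  set R : ℝ := ∑ k, ‖r k‖ * ‖r k‖ with hR
  have hR0 : 0 ≤ R := Finset.sum_nonneg fun k _ => by positivity
  refine ⟨δ' / (2 * (R + 1)), by positivity, fun K a ha ha' hK => ?_⟩
  set m1 : A := ∑ p : τ × Fin n, a p 0 with hm1
  have hao : ∀ p q : τ × Fin n, p ≠ q → ∀ i j, star (a p i) * a q j = 0 := by
    intro p q hpq i j
    refine RI.orth ?_ (ha p i) (ha q j)
    rw [hYs]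
    exact hYo _ _ hpq
  let a' : τ → Fin (l + 1) → A := fun t i => ∑ k : Fin n, a (t, k) i.succ * r k
  have ha'1 : ∀ t i, a' t i ∈ RI (Y' t) := by
    intro t i
    refine RI.sum _ fun k _ => ?_
    refine RI.trans (RI.mul (ha (t, k) i.succ) (r k)) ?_
    exact mem_RI_sum (z := fun k : Fin n => Y (t, k)) (fun k => hY _) (fun k k' h =>
      hYo _ _ fun h1 => h (congrArg Prod.snd h1)) k
  have ha'2 : ∀ t i, star (a' t i) ∈ RI (X' 0) := by
    intro t i
    show star (∑ k : Fin n, a (t, k) i.succ * r k) ∈ RI (X 1)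
    rw [star_sum]
    refine RI.sum _ fun k _ => ?_
    rw [star_mul]
    exact RI.mul (hr1 k) _
  have hrow : ∀ t, NormMod (insert m1 K) (X' 0 - ∑ i, star (a' t i) * a' t i) δ' := by
    intro t B i φ hφ
    have hm0 : φ m1 = 0 := hφ _ (Set.mem_insert _ _)
    have hK' : ∀ k ∈ K, φ k = 0 := fun k hk => hφ k (Set.mem_insert_of_mem _ hk)
    have h0 : ∀ p : τ × Fin n, φ (a p 0) = 0 := by
      intro p
      have e1 : star (a p 0) * m1 = star (a p 0) * a p 0 := by
        rw [hm1, Finset.mul_sum, Finset.sum_eq_single p]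
        · intro q _ hq
          exact hao p q (Ne.symm hq) 0 0
        · intro h; exact absurd (Finset.mem_univ _) h
      have e2 : star (φ (a p 0)) * φ (a p 0) = 0 := by
        rw [← map_star, ← map_mul, ← e1, map_mul, hm0, mul_zero]
      exact CStarRing.star_mul_self_eq_zero_iff _ |>.1 e2
    have h1 : ∀ k : Fin n, ‖φ (X 0) - ∑ i : Fin (l + 1),
        star (φ (a (t, k) i.succ)) * φ (a (t, k) i.succ)‖ ≤ δ' / (2 * (R + 1)) := by
      intro k
      have h2 := hK (t, k) B i φ hK'
      rw [Fin.sum_univ_succ, map_sub, map_add, map_mul, h0, mul_zero, zero_add, map_sum] at h2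
      simpa only [map_mul, map_star] using h2
    have h2 : ∑ i, star (a' t i) * a' t i =
        ∑ k, star (r k) * (∑ i : Fin (l + 1), star (a (t, k) i.succ) * a (t, k) i.succ) * r k := by
      have e1 : ∀ i, star (a' t i) * a' t i =
          ∑ k, star (r k) * (star (a (t, k) i.succ) * a (t, k) i.succ) * r k := by
        intro i
        show star (∑ k : Fin n, a (t, k) i.succ * r k) * (∑ k : Fin n, a (t, k) i.succ * r k) = _
        rw [star_sum, Finset.sum_mul_sum]
        refine Finset.sum_congr rfl fun k _ => ?_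
        rw [Finset.sum_eq_single k]
        · rw [star_mul]; simp only [mul_assoc]
        · intro k' _ hk'
          rw [star_mul]
          have := hao (t, k) (t, k') (fun h => hk' (congrArg Prod.snd h).symm) i.succ i.succ
          calc _ = star (r k) * (star (a (t, k) i.succ) * a (t, k') i.succ) * r k' := by
                simp only [mul_assoc]
            _ = 0 := by rw [this]; simp
        · intro h; exact absurd (Finset.mem_univ _) h
      simp only [e1]
      rw [Finset.sum_comm]
      refine Finset.sum_congr rfl fun k _ => ?_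
      rw [Finset.mul_sum, Finset.sum_mul]
    have h3 : φ (X' 0 - ∑ i, star (a' t i) * a' t i) =
        ∑ k, star (φ (r k)) * (φ (X 0) - ∑ i : Fin (l + 1),
          star (φ (a (t, k) i.succ)) * φ (a (t, k) i.succ)) * φ (r k) -
        φ (∑ k, star (r k) * X 0 * r k - X 1) := by
      rw [h2]
      show φ (X 1 - _) = _
      simp only [map_sub, map_sum, map_mul, map_star, mul_sub, sub_mul,
        Finset.sum_sub_distrib]
      abel
    have h4 : ‖∑ k, star (φ (r k)) * (φ (X 0) - ∑ i : Fin (l + 1),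
          star (φ (a (t, k) i.succ)) * φ (a (t, k) i.succ)) * φ (r k)‖ ≤
        R * (δ' / (2 * (R + 1))) := by
      rw [hR, Finset.sum_mul]
      refine norm_sum_le_of_le _ fun k _ => ?_
      calc _ ≤ ‖φ (r k)‖ * (δ' / (2 * (R + 1))) * ‖φ (r k)‖ := by
            refine (norm_mul_le _ _).trans ?_
            gcongr
            refine (norm_mul_le _ _).trans ?_
            rw [norm_star]
            gcongr
            exact h1 k
        _ ≤ ‖r k‖ * (δ' / (2 * (R + 1))) * ‖r k‖ := by
            gcongr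
            · exact NonUnitalStarAlgHom.norm_apply_le φ _
            · exact NonUnitalStarAlgHom.norm_apply_le φ _
        _ = _ := by ring
    have h5 : R * (δ' / (2 * (R + 1))) ≤ δ' / 2 := by
      rw [mul_div_assoc', div_le_div_iff₀ (by positivity) (by norm_num)]
      nlinarith
    rw [h3]
    calc _ ≤ _ := norm_sub_le _ _
      _ ≤ δ' / 2 + δ' / 2 := by
          gcongr
          · exact h4.trans h5
          · exact (NonUnitalStarAlgHom.norm_apply_le φ _).trans hr2
      _ = δ' := by ring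
  obtain ⟨m', hm'1, hm'2, hm'3⟩ := hih (insert m1 K) a' ha'1 ha'2 hrow
  have hYY : ∑ t, Y' t = ∑ p : τ × Fin n, Y p := by
    rw [Fintype.sum_prod_type]
  have hXX' : ∑ s, X s = X 0 + ∑ s, X' s := Fin.sum_univ_succ X
  have hX'0 : 0 ≤ ∑ s, X' s := Finset.sum_nonneg fun s _ => hX _
  have hX'1 : (∑ s, X' s) * X 0 = 0 := by
    rw [Finset.sum_mul]
    exact Finset.sum_eq_zero fun s _ => hXo _ _ (Fin.succ_ne_zero s)
  have hX'2 : X 0 * (∑ s, X' s) = 0 := by
    rw [Finset.mul_sum]
    exact Finset.sum_eq_zero fun s _ => hXo _ _ (Fin.succ_ne_zero s).symm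
  have hm1s : star m1 ∈ RI (X 0) := by
    rw [hm1, star_sum]
    exact RI.sum _ fun p _ => ha' p 0
  refine ⟨m1 + m', ?_, ?_, ?_⟩
  · refine RI.add ?_ (by rw [← hYY]; exact hm'1)
    rw [hm1]
    refine RI.sum _ fun p _ => RI.trans (ha p 0) ?_
    exact mem_RI_sum hY hYo p
  · rw [star_add, hXX']
    refine RI.add (RI.trans hm1s ?_) (RI.trans hm'2 ?_)
    · exact mem_RI_add_left (hX 0) hX'1
    · rw [add_comm]
      exact mem_RI_add_left hX'0 hX'2
  · intro B i φ hφ
    have hm0 : φ (m1 + m') = 0 := hφ _ (Set.mem_insert _ _)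
    have hK' : ∀ k ∈ K, φ k = 0 := fun k hk => hφ k (Set.mem_insert_of_mem _ hk)
    have h1 : m' * star m1 = 0 := by
      have h2 := RI.orth (z := ∑ s, X' s) (z' := X 0)
        (by rw [(IsSelfAdjoint.of_nonneg hX'0).star_eq]; exact hX'1) hm'2 hm1s
      rwa [star_star] at h2
    have h2 : φ m1 = 0 := by
      have e1 : (m1 + m') * star m1 = m1 * star m1 := by rw [add_mul, h1, add_zero]
      have e2 : φ m1 * star (φ m1) = 0 := by
        rw [← map_star, ← map_mul, ← e1, map_mul, hm0, zero_mul]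
      exact CStarRing.mul_star_self_eq_zero_iff _ |>.1 e2
    have h3 : φ m' = 0 := by
      rw [map_add, h2, zero_add] at hm0; exact hm0
    refine hm'3 B i φ fun k hk => ?_
    rcases hk with rfl | hk
    · exact h3
    rcases hk with rfl | hk
    · exact h2
    · exact hK' k hk

/-- index types of the targets -/
def Tgt (n : ℕ) : ℕ → Type
  | 0 => Unit
  | l + 1 => Tgt n l × Fin n

instance Tgt.fintype (n : ℕ) : ∀ l, Fintype (Tgt n l)
  | 0 => inferInstanceAs (Fintype Unit)
  | l + 1 => @instFintypeProd _ _ (Tgt.fintype n l) _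

instance Tgt.decEq (n : ℕ) : ∀ l, DecidableEq (Tgt n l)
  | 0 => inferInstanceAs (DecidableEq Unit)
  | l + 1 => @instDecidableEqProd _ _ (Tgt.decEq n l) _

theorem core {n : ℕ} (hA : WPI A n) (c : A) : ∀ l : ℕ, CoreProp c l (Tgt n l)
  | 0 => core_zero c
  | l + 1 => core_succ hA (core hA c l)

end

end Vale.Agent.P133.R2.H28
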