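import Vale.Agent.P133.R2.H645.Max

/-!
P133 (helper28): countably many ideals, from Baire's theorem (helper645).
-/

open scoped ComplexOrder

namespace Vale.Agent.P133.R2.H28

open Vale.Agent.P133 Vale.Agent.P133.Statement Vale.Agent.P133.H832 Vale.Agent.P133F
  Vale.Agent.P133.H681

universe u

variable {A : Type u} [NonUnitalCStarAlgebra A] [PartialOrder A] [StarOrderedRing A]

/-- A weakly purely infinite C*-algebra is purely infinite if for all `a ≥ 0` and `δ > 0` every
closed ideal without `(a - δ)₊` is contained in one of countably many closed ideals without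
`a`. -/
theorem pi_of_countable (hW : WeaklyPurelyInfinite A)
    (h : ∀ a : A, 0 ≤ a → ∀ δ : ℝ, 0 < δ → ∃ S : Set (Submodule ℂ A), S.Countable ∧
      (∀ M ∈ S, IsClosedIdeal M ∧ a ∉ M) ∧
        ∀ P : Submodule ℂ A, IsClosedIdeal P → cut a δ ∉ P → ∃ M ∈ S, P ≤ M) :
    PurelyInfinite A := by
  obtain ⟨n, hn⟩ := wpi_elementwise hW
  refine (pi_iff_twoOrth hW).2 (twoOrth_iff.2 fun a ha δ hδ => ?_)
  obtain ⟨S, hS, hS1, hS2⟩ := h a ha δ hδ
  obtain ⟨d, hd, hda, hdn⟩ := H645.exists_nonscalar_all hn ha hS (fun M hM => (hS1 M hM).1)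
    fun M hM => (hS1 M hM).2
  refine ⟨d, hd, hda, fun P hP hc l hl => ?_⟩
  obtain ⟨M, hM, hPM⟩ := hS2 P hP hc
  exact hdn M hM l (hPM hl)

end Vale.Agent.P133.R2.H28
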