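import Vale.Agent.P133.R2.H28.Conv
import Vale.Agent.P133.H681.Generic2
import Vale.Agent.P133.H681.WpiIdeal

/-!
P133 (helper28; the theorem is due to helper786): in a weakly purely infinite C*-algebra every
positive element is covered by finitely many elements all of whose multiples are below it.
-/

open scoped ComplexOrder

namespace Vale.Agent.P133.R2.H28

open Vale.Agent.P133 Vale.Agent.P133.Statement Vale.Agent.P133.H832 Vale.Agent.P133F
  Vale.Agent.P133.H681

universe u

variable {A : Type u} [NonUnitalCStarAlgebra A] [PartialOrder A] [StarOrderedRing A]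

theorem inId_add_left {c c' : A} (hc : 0 ≤ c) (hc' : 0 ≤ c') : InId (c + c') c := by
  obtain ⟨I, hI, hI'⟩ := isClosedIdeal_inId (c + c')
  exact (hI' c).1 (hI.of_le hc (le_add_of_nonneg_right hc') ((hI' _).2 (InId.refl _)))

theorem inId_add_right {c c' : A} (hc : 0 ≤ c) (hc' : 0 ≤ c') : InId (c + c') c' := by
  rw [add_comm]; exact inId_add_left hc' hc

/-- sums of elements all of whose multiples are below `a` -/
def SumB (a c : A) : Prop :=
  ∃ (T : ℕ) (d : Fin T → A), (∀ t, 0 ≤ d t) ∧ (∀ t, InfB a (d t)) ∧ c = ∑ t, d t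

theorem SumB.nonneg {a c : A} (h : SumB a c) : 0 ≤ c := by
  obtain ⟨T, d, h1, -, rfl⟩ := h
  exact Finset.sum_nonneg fun t _ => h1 t

theorem SumB.add {a c c' : A} (h : SumB a c) (h' : SumB a c') : SumB a (c + c') := by
  obtain ⟨T, d, h1, h2, rfl⟩ := h
  obtain ⟨T', d', h1', h2', rfl⟩ := h'
  refine ⟨T + T', Fin.append d d', fun t => ?_, fun t => ?_, ?_⟩
  · refine Fin.addCases (fun i => ?_) (fun i => ?_) t
    · rw [Fin.append_left]; exact h1 i
    · rw [Fin.append_right]; exact h1' i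
  · refine Fin.addCases (fun i => ?_) (fun i => ?_) t
    · rw [Fin.append_left]; exact h2 i
    · rw [Fin.append_right]; exact h2' i
  · rw [Fin.sum_univ_add]
    simp only [Fin.append_left, Fin.append_right]

/-- the ideal generated by the elements all of whose multiples are below `a` -/
def belowIdeal (a : A) : Submodule ℂ A where
  carrier := {x | ∃ c, SumB a c ∧ InId c x}
  zero_mem' := ⟨0, ⟨0, fun i => i.elim0, fun i => i.elim0, fun i => i.elim0, by simp⟩,
    InId.zero _⟩
  add_mem' := by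
    rintro x y ⟨c, hc, hx⟩ ⟨c', hc', hy⟩
    exact ⟨c + c', hc.add hc', ((inId_add_left hc.nonneg hc'.nonneg).trans hx).add
      ((inId_add_right hc.nonneg hc'.nonneg).trans hy)⟩
  smul_mem' := by
    rintro l x ⟨c, hc, hx⟩
    exact ⟨c, hc, hx.smul l⟩

theorem isClosedIdeal_belowIdeal (a : A) : IsClosedIdeal (belowIdeal a).topologicalClosure := by
  refine ⟨(belowIdeal a).isClosed_topologicalClosure, fun y x hx => ⟨?_, ?_⟩⟩
  · exact map_mem_closure (f := fun z => y * z) (by fun_prop) hx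
      fun z ⟨c, hc, hz⟩ => ⟨c, hc, hz.mulL y⟩
  · exact map_mem_closure (f := fun z => z * y) (by fun_prop) hx
      fun z ⟨c, hc, hz⟩ => ⟨c, hc, hz.mulR y⟩

theorem cover {n : ℕ} (hA : WPI A n) {a : A} (ha : 0 ≤ a) {δ : ℝ} (hδ : 0 < δ) :
    ∃ (T : ℕ) (c : Fin T → A), (∀ t, 0 ≤ c t) ∧ (∀ t, InfB a (c t)) ∧
      InId (∑ t, c t) (cut a δ) := by
  have h1 : a ∈ (belowIdeal a).topologicalClosure := by
    by_contra h
    obtain ⟨c, hc0, hc, hac⟩ := exists_below (wpi_of_elt hA) ha (isClosedIdeal_belowIdeal a) h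
    refine hc (subset_closure ⟨c, ⟨1, fun _ => c, fun _ => hc0, fun _ => infB_of_allBelow hc0 hac,
      by simp⟩, InId.refl c⟩)
  obtain ⟨x, ⟨c, ⟨T, d, h2, h3, rfl⟩, hx⟩, hxa⟩ := Metric.mem_closure_iff.1 h1 δ hδ
  refine ⟨T, d, h2, h3, inId_cut ha (ε := δ) ?_ hδ le_rfl⟩
  intro B i φ hφ
  have h4 : ‖φ x‖ ≤ 0 := normMod_singleton hx B i φ hφ
  have h5 : φ a = φ (a - x) := by
    rw [map_sub, norm_le_zero_iff.1 h4, sub_zero]
  rw [h5]
  exact (NonUnitalStarAlgHom.norm_apply_le φ _).trans (by rw [← dist_eq_norm]; exact hxa.le)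

end Vale.Agent.P133.R2.H28
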