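import Vale.Agent.P133.R2.H28.Sums

/-!
P133 (helper28): iterating the splitting into two orthogonal elements.
-/

open scoped ComplexOrder

namespace Vale.Agent.P133.R2.H28

open Vale.Agent.P133 Vale.Agent.P133.Statement Vale.Agent.P133.H832 Vale.Agent.P133F
  Vale.Agent.P133.H681

universe u

section

variable {A : Type u} [NonUnitalCStarAlgebra A]

theorem her_trans {a b x : A} (h : x ∈ closure (Set.range fun w => b * w * b))
    (hb : b ∈ closure (Set.range fun w => a * w * a)) :
    x ∈ closure (Set.range fun w => a * w * a) := by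
  have h0 : ∀ w v : A, (a * w * a) * v * (a * w * a) ∈ Set.range fun w => a * w * a :=
    fun w v => ⟨w * a * v * a * w, by simp only [mul_assoc]⟩
  have h1 : ∀ v : A, b * v * b ∈ closure (Set.range fun w => a * w * a) := by
    intro v
    have hc : Continuous fun y : A => y * v * y := by fun_prop
    refine map_mem_closure (f := fun y : A => y * v * y) hc hb ?_
    rintro _ ⟨w, rfl⟩
    exact h0 w v
  have h2 : closure (Set.range fun w => b * w * b) ⊆ closure (Set.range fun w => a * w * a) := by
    refine closure_minimal ?_ isClosed_closure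
    rintro _ ⟨v, rfl⟩
    exact h1 v
  exact h2 h

/-- two orthogonal elements in every hereditary subalgebra -/
def TwoOrth (A : Type u) [NonUnitalCStarAlgebra A] [PartialOrder A] [StarOrderedRing A] : Prop :=
  ∀ a : A, 0 ≤ a → ∀ δ : ℝ, 0 < δ → ∃ b₁ b₂ : A, 0 ≤ b₁ ∧ 0 ≤ b₂ ∧ b₁ * b₂ = 0 ∧
    b₁ ∈ closure (Set.range fun w => a * w * a) ∧ b₂ ∈ closure (Set.range fun w => a * w * a) ∧
    InId b₁ (cut a δ) ∧ InId b₂ (cut a δ)

variable [PartialOrder A] [StarOrderedRing A]

theorem InId.cut_cut {a b : A} (ha : 0 ≤ a) (hb : 0 ≤ b) {δ : ℝ} (hδ : 0 < δ)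
    (h : InId b (cut a (δ / 2))) : ∃ η : ℝ, 0 < η ∧ InId (cut b η) (cut a δ) := by
  obtain ⟨η, hη, h1⟩ := normMod_inId h (half_pos hδ)
  refine ⟨η, hη, inId_cut ha (ε := δ) ?_ hδ le_rfl⟩
  have h2 : NormMod {cut b η} b η := by
    have h3 := normMod_of_cut (K := {cut b η}) hb hη (normMod_singleton (InId.refl (cut b η)))
    rwa [zero_add] at h3
  exact (normMod_of_cut ha (half_pos hδ) (h1 _ h2)).mono (by linarith)

theorem iter (h : TwoOrth A) (k : ℕ) : ∀ a : A, 0 ≤ a → ∀ δ : ℝ, 0 < δ →
    ∃ x : Mult k → A, (∀ i, 0 ≤ x i) ∧ (∀ i j, i ≠ j → x i * x j = 0) ∧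
      (∀ i, x i ∈ closure (Set.range fun w => a * w * a)) ∧ ∀ i, InId (x i) (cut a δ) := by
  induction k with
  | zero =>
    intro a ha δ hδ
    refine ⟨fun _ => a, fun _ => ha, ?_, fun _ => ?_, fun _ => inId_cut_self ha hδ⟩
    · intro i j hij
      have : Subsingleton (Mult 0) := inferInstanceAs (Subsingleton Unit)
      exact absurd (Subsingleton.elim i j) hij
    · obtain ⟨e, hes, hen, ⟨w, hw⟩, hye, hey⟩ := local_unit ha one_pos
      rw [Metric.mem_closure_iff]
      intro ε hε
      obtain ⟨e, hes, hen, ⟨w, hw⟩, hye, hey⟩ := local_unit ha (ε := ε / 3) (by positivity)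
      have hws : star w * a = e := by
        have h1 := congrArg star hw
        rw [hes, star_mul, (IsSelfAdjoint.of_nonneg ha).star_eq] at h1
        exact h1.symm
      refine ⟨a * (w * a * star w) * a, ⟨_, rfl⟩, ?_⟩
      have e1 : a * (w * a * star w) * a = e * a * e := by
        calc _ = (a * w) * a * (star w * a) := by simp only [mul_assoc]
          _ = _ := by rw [← hw, hws]
      have e2 : e * a * e - a = e * (a * e - a) + (e * a - a) := by
        rw [mul_sub, ← mul_assoc]; abel
      rw [dist_comm, dist_eq_norm, e1, e2]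
      calc _ ≤ 1 * (ε / 3) + ε / 3 := by
            refine (norm_add_le _ _).trans ?_
            gcongr
            refine (norm_mul_le _ _).trans ?_
            gcongr
        _ < ε := by linarith
  | succ k ih =>
    intro a ha δ hδ
    obtain ⟨b₁, b₂, h1, h2, h12, ha1, ha2, hI1, hI2⟩ := h a ha (δ / 2) (half_pos hδ)
    let b : Bool → A := fun s => if s then b₁ else b₂
    have hb0 : ∀ s, 0 ≤ b s := by
      intro s; cases s
      · exact h2
      · exact h1
    have hba : ∀ s, b s ∈ closure (Set.range fun w => a * w * a) := by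
      intro s; cases s
      · exact ha2
      · exact ha1
    have hbI : ∀ s, InId (b s) (cut a (δ / 2)) := by
      intro s; cases s
      · exact hI2
      · exact hI1
    have h21 : b₂ * b₁ = 0 := by
      have h3 := congrArg star h12
      rwa [star_mul, star_zero, (IsSelfAdjoint.of_nonneg h1).star_eq,
        (IsSelfAdjoint.of_nonneg h2).star_eq] at h3
    have hbo : ∀ s s', s ≠ s' → star (b s) * b s' = 0 := by
      intro s s' hss
      rw [(IsSelfAdjoint.of_nonneg (hb0 s)).star_eq]
      cases s <;> cases s'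
      · exact absurd rfl hss
      · exact h21
      · exact h12
      · exact absurd rfl hss
    choose η hη hηI using fun s => InId.cut_cut ha (hb0 s) hδ (hbI s)
    choose x hx ho hxa hxI using fun s => ih (b s) (hb0 s) (η s) (hη s)
    refine ⟨fun p : Mult k × Bool => x p.2 p.1, fun p => hx _ _, ?_,
      fun p => her_trans (hxa p.2 p.1) (hba p.2), fun p => (hxI p.2 p.1).trans (hηI p.2)⟩
    intro p q hpq
    obtain ⟨i, s⟩ : Mult k × Bool := p
    obtain ⟨j, s'⟩ : Mult k × Bool := q
    show x s i * x s' j = 0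
    by_cases hs : s = s'
    · subst hs
      exact ho s i j fun h3 => hpq (by rw [h3])
    · have h3 := RI.orth (hbo s s' hs) (Her.mem_RI (hxa s i)) (Her.mem_RI (hxa s' j))
      rwa [(IsSelfAdjoint.of_nonneg (hx s i)).star_eq] at h3

theorem pi_of_twoOrth {n : ℕ} (hA : WPI A n) (h : TwoOrth A) : PurelyInfinite A := by
  refine pi_of_family hA fun a ha δ hδ => ?_
  obtain ⟨x, hx, ho, hxa, hxI⟩ := iter h (numS n) a ha δ hδ
  have hcard : numS n ≤ Fintype.card (Mult (numS n)) := by
    rw [Mult.card]; exact (Nat.lt_two_pow_self).le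
  let e : Fin (Fintype.card (Mult (numS n))) ≃ Mult (numS n) := (Fintype.equivFin _).symm
  exact ⟨_, fun i => x (e i), hcard, fun i => hx _, fun i j hij =>
    ho _ _ fun h1 => hij (e.injective h1), fun i => hxa _, fun i => hxI _⟩

end

end Vale.Agent.P133.R2.H28
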