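import Vale.Agent.P133.R2.H28.Iter
import Mathlib.Analysis.CStarAlgebra.Multiplier

/-!
P133 (helper28): approximate units for the reduction to unital algebras.
-/

open scoped ComplexOrder

namespace Vale.Agent.P133.R2.H28

universe u

/-- an approximate unit with `u k * u l = u k` for `k < l` -/
structure AU {B : Type u} [NonUnitalCStarAlgebra B] (e : ℕ → B) : Prop where
  sa : ∀ k, star (e k) = e k
  le : ∀ k, ‖e k‖ ≤ 1
  mul : ∀ k l, k < l → e k * e l = e k
  lim : ∀ b : B, ∀ ε : ℝ, 0 < ε → ∃ K, ∀ k, K ≤ k → ‖e k * b - b‖ < ε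

end Vale.Agent.P133.R2.H28
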