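import Vale.Agent.P133.R2.H28.Strict
import Vale.Agent.P133.R2.H28.MDefs
import Vale.Agent.P133.R2.H905.Norm
import Vale.Agent.P133.R2.H966.BWpi
import Vale.Agent.P133.R2.H328.Block
import Vale.Agent.P133.H832.OrderC

/-!
P133 (helper28): multiplier algebras of weakly purely infinite C*-algebras.
-/

open scoped ComplexOrder MultiplierAlgebra
open Filter Topology

namespace Vale.Agent.P133.R2.H28

open Vale.Agent.P133 Vale.Agent.P133.Statement Vale.Agent.P133.H832 Vale.Agent.P133F
  Vale.Agent.P133.H681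

universe u

section

variable {B : Type u} [NonUnitalCStarAlgebra B]

theorem AU.mul' {e : ℕ → B} (he : AU e) {k l : ℕ} (h : k < l) : e l * e k = e k := by
  have h1 := congrArg star (he.mul k l h)
  rwa [star_mul, he.sa, he.sa] at h1

/-- an almost block tridiagonal position of `T` -/
theorem exists_sub {e : ℕ → B} (he : AU e) (T : 𝓜(ℂ, B)) {η : ℝ} (hη : 0 < η) :
    ∃ f : ℕ → ℕ, StrictMono f ∧
      ∀ i, ‖emb (e (f i)) * T * (1 - emb (e (f (i + 1))))‖ ≤ η / 2 ^ i := by
  have key : ∀ (k : ℕ) (ρ : ℝ), 0 < ρ → ∃ L, ∀ l, L ≤ l →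
      ‖emb (e k) * T * (1 - emb (e l))‖ ≤ ρ := by
    intro k ρ hρ
    obtain ⟨L, hL⟩ := he.lim (star (T.snd (e k))) ρ hρ
    refine ⟨L, fun l hl => ?_⟩
    have h1 : emb (e k) * T * (1 - emb (e l)) = emb (T.snd (e k) - T.snd (e k) * e l) := by
      rw [emb_mul, mul_sub, mul_one, ← map_mul, ← map_sub]
    have h2 := hL l hl
    rw [h1, norm_emb, norm_sub_rev, ← norm_star, star_sub, star_mul, he.sa]
    exact h2.le
  choose L hL using key
  let f : ℕ → ℕ := fun i => Nat.rec 0 (fun i k => max (k + 1)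
    (L k (η / 2 ^ i) (by positivity))) i
  have hf : ∀ i, f (i + 1) = max (f i + 1) (L (f i) (η / 2 ^ i) (by positivity)) := fun i => rfl
  refine ⟨f, strictMono_nat_of_lt_succ fun i => ?_, fun i => ?_⟩
  · rw [hf]
    exact lt_of_lt_of_le (Nat.lt_succ_self _) (le_max_left _ _)
  · refine hL (f i) (η / 2 ^ i) (by positivity) _ ?_
    rw [hf]
    exact le_max_right _ _

/-- the blocks of an approximate unit -/
def blk (e : ℕ → B) (f : ℕ → ℕ) : ℕ → B
  | 0 => e (f 0)
  | i + 1 => e (f (i + 1)) - e (f i)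

theorem blk_sa {e : ℕ → B} (he : AU e) (f : ℕ → ℕ) (i : ℕ) : star (blk e f i) = blk e f i := by
  cases i with
  | zero => exact he.sa _
  | succ i => rw [blk, star_sub, he.sa, he.sa]

theorem blk_norm {e : ℕ → B} (he : AU e) (f : ℕ → ℕ) (i : ℕ) : ‖blk e f i‖ ≤ 2 := by
  cases i with
  | zero => exact (he.le _).trans (by norm_num)
  | succ i =>
    rw [blk]
    exact (norm_sub_le _ _).trans (by linarith [he.le (f (i + 1)), he.le (f i)])

theorem sum_blk {e : ℕ → B} (f : ℕ → ℕ) (K : ℕ) :
    ∑ i ∈ Finset.range (K + 1), blk e f i = e (f K) := by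
  induction K with
  | zero => simp [blk]
  | succ K ih => rw [Finset.sum_range_succ, ih, blk]; abel

theorem blk_orth {e : ℕ → B} (he : AU e) {f : ℕ → ℕ} (hf : StrictMono f) {i j : ℕ}
    (h : i + 2 ≤ j) : blk e f i * blk e f j = 0 ∧ blk e f j * blk e f i = 0 := by
  obtain ⟨j, rfl⟩ : ∃ j', j = j' + 1 := ⟨j - 1, by omega⟩
  have h1 : ∀ k, k < j → e (f k) * blk e f (j + 1) = 0 ∧ blk e f (j + 1) * e (f k) = 0 := by
    intro k hk
    rw [blk, mul_sub, sub_mul, he.mul _ _ (hf (by omega)), he.mul _ _ (hf hk),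
      he.mul' (hf (by omega)), he.mul' (hf hk), sub_self]
    exact ⟨rfl, rfl⟩
  cases i with
  | zero => exact h1 0 (by omega)
  | succ i =>
    rw [blk, sub_mul, mul_sub, (h1 (i + 1) (by omega)).1, (h1 (i + 1) (by omega)).2,
      (h1 i (by omega)).1, (h1 i (by omega)).2, sub_self]
    exact ⟨rfl, rfl⟩

theorem blk_far {e : ℕ → B} (he : AU e) {f : ℕ → ℕ} (hf : StrictMono f) (k : ℕ) {i : ℕ}
    (h : k + 2 ≤ i) : blk e f i * e k = 0 ∧ e k * blk e f i = 0 := by
  obtain ⟨i, rfl⟩ : ∃ j', i = j' + 1 := ⟨i - 1, by omega⟩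
  have h4 : i ≤ f i := hf.le_apply
  have h2 : k < f i := by omega
  have h3 : k < f (i + 1) := h2.trans (hf (Nat.lt_succ_self i))
  rw [blk, sub_mul, mul_sub, he.mul' h2, he.mul' h3, he.mul _ _ h2, he.mul _ _ h3, sub_self]
  exact ⟨rfl, rfl⟩

/-- elements of `closure (t B t)` are killed by what kills `t` -/
theorem kill {t x y : B} (hx : x ∈ closure (Set.range fun v => t * v * t)) :
    (t * y = 0 → x * y = 0) ∧ (y * t = 0 → y * x = 0) := by
  constructor
  · intro h
    have h2 : IsClosed {z : B | z * y = 0} := isClosed_eq (by fun_prop) (by fun_prop)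
    refine closure_minimal ?_ h2 hx
    rintro _ ⟨v, rfl⟩
    show t * v * t * y = 0
    rw [mul_assoc, h, mul_zero]
  · intro h
    have h2 : IsClosed {z : B | y * z = 0} := isClosed_eq (by fun_prop) (by fun_prop)
    refine closure_minimal ?_ h2 hx
    rintro _ ⟨v, rfl⟩
    show y * (t * v * t) = 0
    rw [mul_assoc, ← mul_assoc, h, zero_mul]

theorem SLim.succ {S : ℕ → 𝓜(ℂ, B)} {Z : 𝓜(ℂ, B)} (h : SLim S Z) :
    SLim (fun k => S (k + 1)) Z := by
  obtain ⟨C, hC⟩ := h.bdd
  exact ⟨⟨C, fun k => hC _⟩, fun b => (h.left b).comp (tendsto_add_atTop_nat 1),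
    fun b => (h.right b).comp (tendsto_add_atTop_nat 1)⟩

theorem slim_one {e : ℕ → B} (he : AU e) {f : ℕ → ℕ} (hf : StrictMono f) :
    SLim (fun K => emb (e (f K))) (1 : 𝓜(ℂ, B)) := by
  refine ⟨⟨1, fun k => by rw [norm_emb]; exact he.le _⟩, fun b => ?_, fun b => ?_⟩
  · rw [one_mul]
    simp only [← map_mul]
    rw [Metric.tendsto_atTop]
    intro ε hε
    obtain ⟨K, hK⟩ := he.lim b ε hε
    refine ⟨K, fun k hk => ?_⟩
    rw [dist_eq_norm, ← map_sub, norm_emb]
    exact hK _ (hk.trans hf.le_apply)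
  · rw [mul_one]
    simp only [← map_mul]
    rw [Metric.tendsto_atTop]
    intro ε hε
    obtain ⟨K, hK⟩ := he.lim (star b) ε hε
    refine ⟨K, fun k hk => ?_⟩
    rw [dist_eq_norm, ← map_sub, norm_emb, ← norm_star, star_sub, star_mul, he.sa]
    exact hK _ (hk.trans hf.le_apply)

variable [PartialOrder B] [StarOrderedRing B]

theorem wpi_mult_aux {n : ℕ} (hB : WPI B n) {e : ℕ → B} (he : AU e) [PartialOrder 𝓜(ℂ, B)]
    [StarOrderedRing 𝓜(ℂ, B)] (T : 𝓜(ℂ, B)) (hT : 0 ≤ T) (M : ℕ) {ε : ℝ} (hε : 0 < ε) :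
    ∃ z : Fin 4 → Fin n → Fin M → 𝓜(ℂ, B), ∀ j j', ‖∑ r, ∑ l, star (z r l j) * T * z r l j' -
      (if j = j' then T else 0)‖ ≤ ε := by
  obtain ⟨C, hC0, hC⟩ := H966.bwpi hB M (ε := ε / 64) (R := 4 * ‖T‖) (by positivity)
    (by positivity)
  set η : ℝ := ε / (1024 * (n * C * C + 1)) with hη
  have hnC : 0 ≤ (n : ℝ) * C * C := by positivity
  have hη0 : 0 < η := by positivity
  obtain ⟨f, hf, hfT⟩ := exists_sub he T hη0
  have hTs : star T = T := (IsSelfAdjoint.of_nonneg hT).star_eq
  set p : ℕ → B := blk e f with hp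
  have hps : ∀ i, star (p i) = p i := blk_sa he f
  have hpn : ∀ i, ‖p i‖ ≤ 2 := blk_norm he f
  set q : ℕ → 𝓜(ℂ, B) := fun i => emb (p i) with hq
  have hqn : ∀ i, ‖q i‖ ≤ 2 := fun i => by rw [hq]; simp only [norm_emb]; exact hpn i
  have hqs : ∀ i, star (q i) = q i := fun i => by
    simp only [hq]; rw [← map_star, hps]
  set t : ℕ → B := fun i => p i * T.fst (p i) with ht
  have hte : ∀ i, emb (t i) = q i * T * q i := by
    intro i
    simp only [ht, hq]
    rw [mul_assoc, mul_emb, ← map_mul]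
  have ht0 : ∀ i, 0 ≤ t i := by
    intro i
    have h1 : star ((CFC.sqrt T).fst (p i)) * (CFC.sqrt T).fst (p i) = t i := by
      refine emb_injective ?_
      rw [map_mul, map_star, ← mul_emb, hte, sqrt_conj hT, hqs]
    rw [← h1]
    exact star_mul_self_nonneg _
  have hts : ∀ i, star (t i) = t i := fun i => (IsSelfAdjoint.of_nonneg (ht0 i)).star_eq
  have htn : ∀ i, ‖t i‖ ≤ 4 * ‖T‖ := by
    intro i
    rw [← norm_emb, hte]
    calc _ ≤ 2 * ‖T‖ * 2 := by
          refine (norm_mul_le _ _).trans ?_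
          gcongr
          · refine (norm_mul_le _ _).trans ?_
            gcongr
            exact hqn i
          · exact hqn i
      _ = 4 * ‖T‖ := by ring
  choose ω hω1 hω2 hω3 using fun i => hC (t i) (ht0 i) (htn i)
  -- orthogonality
  have hpp : ∀ r i j, i % 4 = r → j % 4 = r → i ≠ j → p i * p j = 0 := by
    intro r i j hi hj hij
    rcases lt_or_gt_of_ne hij with h | h
    · exact (blk_orth he hf (by omega)).1
    · exact (blk_orth he hf (by omega)).2
  have hqq : ∀ r i j, i % 4 = r → j % 4 = r → i ≠ j → q i * q j = 0 := by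
    intro r i j hi hj hij
    simp only [hq]
    rw [← map_mul, hpp r i j hi hj hij, map_zero]
  have htt : ∀ r i j, i % 4 = r → j % 4 = r → i ≠ j → t i * t j = 0 := by
    intro r i j hi hj hij
    refine emb_injective ?_
    rw [map_mul, hte, hte, map_zero]
    calc _ = q i * T * (q i * q j) * T * q j := by simp only [mul_assoc]
      _ = 0 := by rw [hqq r i j hi hj hij]; simp
  have hωω : ∀ r i j, i % 4 = r → j % 4 = r → i ≠ j → ∀ l l' m m',
      ω i l m * star (ω j l' m') = 0 := by
    intro r i j hi hj hij l l' m m'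
    refine (kill (hω2 i l m)).1 ?_
    have h1 : ω j l' m' * t i = 0 :=
      (kill (hω2 j l' m')).1 (htt r j i hj hi (Ne.symm hij))
    have h2 := congrArg star h1
    rwa [star_mul, hts, star_zero] at h2
  have hfar : ∀ k i, k + 2 ≤ i → t i * e k = 0 ∧ e k * t i = 0 := by
    intro k i hi
    obtain ⟨h1, h2⟩ := blk_far he hf k hi
    constructor
    · refine emb_injective ?_
      rw [map_mul, hte, map_zero, mul_assoc]
      simp only [hq]
      rw [← map_mul, h1, map_zero, mul_zero]
    · refine emb_injective ?_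
      rw [map_mul, hte, map_zero, ← mul_assoc, ← mul_assoc]
      simp only [hq]
      rw [← map_mul, h2, map_zero, zero_mul, zero_mul]
  -- strict limits of the columns
  have hZ : ∀ (r : Fin 4) (l : Fin n) (j : Fin M), ∃ Z : 𝓜(ℂ, B), SLim (fun K =>
      emb (∑ i ∈ Finset.range K, if i % 4 = (r : ℕ) then p i * ω i l j else 0)) Z := by
    intro r l j
    refine exists_slim (fun h1 h2 h3 => H905.strict_lim h1 h2 h3) he (C := 2 * C) ?_ ?_
    · intro K
      rw [← Finset.sum_filter]
      refine H905.norm_sum_orth _ _ (by positivity) ?_ ?_ ?_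
      · intro i _
        exact (norm_mul_le _ _).trans (mul_le_mul (hpn i) (hω1 i l j) (norm_nonneg _) (by norm_num))
      · intro i hi i' hi' hii
        rw [star_mul, hps]
        calc _ = star (ω i l j) * (p i * p i') * ω i' l j := by simp only [mul_assoc]
          _ = 0 := by
            rw [hpp r i i' (Finset.mem_filter.1 hi).2 (Finset.mem_filter.1 hi').2 hii]; simp
      · intro i hi i' hi' hii
        rw [star_mul]
        calc _ = p i * (ω i l j * star (ω i' l j)) * star (p i') := by simp only [mul_assoc]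
          _ = 0 := by
            rw [hωω r i i' (Finset.mem_filter.1 hi).2 (Finset.mem_filter.1 hi').2 hii]; simp
    · intro k
      refine ⟨k + 2, fun i hi => ?_⟩
      split_ifs
      · constructor
        · rw [mul_assoc, (kill (hω2 i l j)).1 (hfar k i hi).1, mul_zero]
        · rw [← mul_assoc, (blk_far he hf k hi).2, zero_mul]
      · simp
  choose Z hZ using hZ
  have hD : ∀ r : Fin 4, ∃ D : 𝓜(ℂ, B), SLim (fun K =>
      emb (∑ i ∈ Finset.range K, if i % 4 = (r : ℕ) then t i else 0)) D := by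
    intro r
    refine exists_slim (fun h1 h2 h3 => H905.strict_lim h1 h2 h3) he (C := 4 * ‖T‖) ?_ ?_
    · intro K
      rw [← Finset.sum_filter]
      refine H905.norm_sum_orth _ _ (by positivity) (fun i _ => htn i) ?_ ?_
      · intro i hi i' hi' hii
        rw [hts]
        exact htt r i i' (Finset.mem_filter.1 hi).2 (Finset.mem_filter.1 hi').2 hii
      · intro i hi i' hi' hii
        rw [hts]
        exact htt r i i' (Finset.mem_filter.1 hi).2 (Finset.mem_filter.1 hi').2 hii
    · intro k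
      refine ⟨k + 2, fun i hi => ?_⟩
      split_ifs
      · exact hfar k i hi
      · simp
  choose D hD using hD
  have hY : ∀ r : Fin 4, ∃ Y : 𝓜(ℂ, B), SLim (fun K =>
      emb (∑ i ∈ Finset.range K, if i % 4 = (r : ℕ) then p i else 0)) Y := by
    intro r
    refine exists_slim (fun h1 h2 h3 => H905.strict_lim h1 h2 h3) he (C := 2) ?_ ?_
    · intro K
      rw [← Finset.sum_filter]
      refine H905.norm_sum_orth _ _ (by positivity) (fun i _ => hpn i) ?_ ?_
      · intro i hi i' hi' hii
        rw [hps]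
        exact hpp r i i' (Finset.mem_filter.1 hi).2 (Finset.mem_filter.1 hi').2 hii
      · intro i hi i' hi' hii
        rw [hps]
        exact hpp r i i' (Finset.mem_filter.1 hi).2 (Finset.mem_filter.1 hi').2 hii
    · intro k
      refine ⟨k + 2, fun i hi => ?_⟩
      split_ifs
      · exact blk_far he hf k hi
      · simp
  choose Y hY using hY
  -- the sum of the `Y r` is one
  have hY1 : ∑ r, Y r = 1 := by
    have h1 := (SLim.sum Finset.univ (fun r _ => hY r)).succ
    refine h1.unique ?_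
    have h2 : (fun K => ∑ r : Fin 4, emb (∑ i ∈ Finset.range (K + 1),
        if i % 4 = (r : ℕ) then p i else 0)) = fun K => (emb (e (f K)) : 𝓜(ℂ, B)) := by
      funext K
      rw [← map_sum, Finset.sum_comm, ← sum_blk (e := e) f K]
      congr 1
      refine Finset.sum_congr rfl fun i _ => ?_
      have h3 : i % 4 < 4 := Nat.mod_lt _ (by norm_num)
      rw [Finset.sum_eq_single (⟨i % 4, h3⟩ : Fin 4)]
      · simp [hp]
      · intro r _ hr
        rw [if_neg]
        intro h4
        exact hr (Fin.ext h4.symm)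
      · intro h4; exact absurd (Finset.mem_univ _) h4
    rw [h2]
    exact slim_one he hf
  -- the estimates
  have hqz : q 0 = emb (e (f 0)) := rfl
  have hqsucc : ∀ i, q (i + 1) = emb (e (f (i + 1))) - emb (e (f i)) := fun i => by
    simp only [hq, hp, blk]; rw [map_sub]
  have hvs : ∀ k, star (emb (e (f k)) : 𝓜(ℂ, B)) = emb (e (f k)) := fun k => by
    rw [← map_star, he.sa]
  have hv1 : ∀ k, ‖(emb (e (f k)) : 𝓜(ℂ, B))‖ ≤ 1 := fun k => by rw [norm_emb]; exact he.le _
  have hvv : ∀ k l, k < l → (emb (e (f k)) : 𝓜(ℂ, B)) * emb (e (f l)) = emb (e (f k)) :=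
    fun k l h => by rw [← map_mul, he.mul _ _ (hf h)]
  have hDE : ∀ (r : Fin 4) K, emb (∑ i ∈ Finset.range K, if i % 4 = (r : ℕ) then t i else 0) =
      ∑ i ∈ (Finset.range K).filter (fun i => i % 4 = (r : ℕ)), q i * T * q i := by
    intro r K
    rw [← Finset.sum_filter, map_sum]
    exact Finset.sum_congr rfl fun i _ => hte i
  have est1 : ∀ (r : Fin 4) (j j' : Fin M), ‖∑ l, star (Z r l j) * T * Z r l j' -
      (if j = j' then D r else 0)‖ ≤ ε / 64 + 16 * n * C * C * η := by
    intro r j j'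
    have h1 : SLim (fun K => ∑ l, star (emb (∑ i ∈ Finset.range K,
        if i % 4 = (r : ℕ) then p i * ω i l j else 0)) * T *
        emb (∑ i ∈ Finset.range K, if i % 4 = (r : ℕ) then p i * ω i l j' else 0) -
        (if j = j' then emb (∑ i ∈ Finset.range K, if i % 4 = (r : ℕ) then t i else 0) else 0))
        (∑ l, star (Z r l j) * T * Z r l j' - (if j = j' then D r else 0)) :=
      (SLim.sum Finset.univ fun l _ =>
        (((hZ r l j).star.mul (SLim.const T)).mul (hZ r l j'))).sub ((hD r).ite _)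
    refine h1.norm_le (by positivity) fun K => ?_
    have h2 := H328.block_estimate hTs hvs hv1 hvv hη0.le hfT hqz hqsucc (r := r) hC0
      (fun i l j => (emb (ω i l j) : 𝓜(ℂ, B))) (fun i l j => by rw [norm_emb]; exact hω1 i l j)
      (fun i l j => by
        have h3 : Continuous (emb : B → 𝓜(ℂ, B)) :=
          (NonUnitalStarAlgHom.isometry (emb : B →⋆ₙₐ[ℂ] 𝓜(ℂ, B)) emb_injective).continuous
        refine map_mem_closure h3 (hω2 i l j) ?_
        rintro _ ⟨v, rfl⟩
        refine ⟨T * q i * emb v * q i * T, ?_⟩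
        simp only [map_mul, hte, mul_assoc])
      (ε := ε / 64) (by positivity) (fun i j j' => by
        have h3 := hω3 i j j'
        rw [← norm_emb, map_sub, map_sum] at h3
        refine le_of_eq_of_le ?_ h3
        congr 2
        · refine Finset.sum_congr rfl fun l _ => ?_
          rw [map_mul, map_mul, map_star, hte]
        · split_ifs
          · exact (hte i).symm
          · exact (map_zero _).symm) K j j'
    have h4 : ∀ l (j : Fin M), (emb (∑ i ∈ Finset.range K,
        if i % 4 = (r : ℕ) then p i * ω i l j else 0) : 𝓜(ℂ, B)) =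
        ∑ i ∈ (Finset.range K).filter (fun i => i % 4 = (r : ℕ)), q i * emb (ω i l j) := by
      intro l j
      rw [← Finset.sum_filter, map_sum]
      exact Finset.sum_congr rfl fun i _ => map_mul _ _ _
    simp only [h4, hDE]
    exact h2
  have est2 : ∀ r : Fin 4, ‖star (Y r) * T * Y r - D r‖ ≤ 16 * η := by
    intro r
    have h1 := (((hY r).star.mul (SLim.const T)).mul (hY r)).sub (hD r)
    refine h1.norm_le (by positivity) fun K => ?_
    have h2 := H328.block_estimate2 hTs hvs hv1 hvv hη0.le hfT hqz hqsucc r K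
    have h4 : (emb (∑ i ∈ Finset.range K,
        if i % 4 = (r : ℕ) then p i else 0) : 𝓜(ℂ, B)) =
        ∑ i ∈ (Finset.range K).filter (fun i => i % 4 = (r : ℕ)), q i := by
      rw [← Finset.sum_filter, map_sum]
    have h5 : star (∑ i ∈ (Finset.range K).filter (fun i => i % 4 = (r : ℕ)), q i) =
        ∑ i ∈ (Finset.range K).filter (fun i => i % 4 = (r : ℕ)), q i := by
      rw [star_sum]
      exact Finset.sum_congr rfl fun i _ => hqs i
    simp only [h4, hDE, h5]
    exact h2
  -- factorization of `T`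
  set g : 𝓜(ℂ, B) := ((4 : ℕ) : ℝ) • ∑ r, star (Y r) * T * Y r with hg
  have hTg : T ≤ g := by
    have h1 := sum_sq_le (fun r : Fin 4 => CFC.sqrt T * Y r)
    rw [← Finset.mul_sum, hY1, mul_one] at h1
    have h2 : star (CFC.sqrt T) * CFC.sqrt T = T := by
      rw [(IsSelfAdjoint.of_nonneg (CFC.sqrt_nonneg T)).star_eq, CFC.sqrt_mul_sqrt_self T hT]
    rw [h2] at h1
    refine h1.trans (le_of_eq ?_)
    rw [hg]
    congr 1
    exact Finset.sum_congr rfl fun r _ => sqrt_conj hT _ _
  obtain ⟨d, hd1, hd2⟩ := order_factor_c hT hTg (δ := ε / 4) (by positivity)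
  refine ⟨fun r l j => Z r l j * ((2 : ℝ) • d), fun j j' => ?_⟩
  set E : Fin 4 → 𝓜(ℂ, B) := fun r => ∑ l, star (Z r l j) * T * Z r l j' -
    (if j = j' then star (Y r) * T * Y r else 0) with hE
  have hEn : ∀ r, ‖E r‖ ≤ ε / 64 + 16 * n * C * C * η + 16 * η := by
    intro r
    have h1 : E r = (∑ l, star (Z r l j) * T * Z r l j' - (if j = j' then D r else 0)) -
        (if j = j' then star (Y r) * T * Y r - D r else 0) := by
      simp only [hE]
      split_ifs <;> abel
    rw [h1]
    refine (norm_sub_le _ _).trans (add_le_add (est1 r j j') ?_)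
    split_ifs
    · exact est2 r
    · rw [norm_zero]; positivity
  have h1 : ∑ r, ∑ l, star (Z r l j * ((2 : ℝ) • d)) * T * (Z r l j' * ((2 : ℝ) • d)) -
      (if j = j' then T else 0) = star ((2 : ℝ) • d) * (∑ r, E r) * ((2 : ℝ) • d) +
      (if j = j' then star d * g * d - T else 0) := by
    have e1 : ∑ r, ∑ l, star (Z r l j * ((2 : ℝ) • d)) * T * (Z r l j' * ((2 : ℝ) • d)) =
        star ((2 : ℝ) • d) * (∑ r, ∑ l, star (Z r l j) * T * Z r l j') * ((2 : ℝ) • d) := by
      rw [Finset.mul_sum, Finset.sum_mul]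
      refine Finset.sum_congr rfl fun r _ => ?_
      rw [Finset.mul_sum, Finset.sum_mul]
      refine Finset.sum_congr rfl fun l _ => ?_
      rw [star_mul]; simp only [mul_assoc]
    have e2 : ∑ r, ∑ l, star (Z r l j) * T * Z r l j' = ∑ r, E r +
        (if j = j' then ∑ r, star (Y r) * T * Y r else 0) := by
      simp only [hE]
      rw [Finset.sum_sub_distrib]
      split_ifs
      · abel
      · simp
    rw [e1, e2, mul_add, add_mul]
    have e3 : star ((2 : ℝ) • d) * (if j = j' then ∑ r, star (Y r) * T * Y r else 0) *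
        ((2 : ℝ) • d) = if j = j' then star d * g * d else 0 := by
      split_ifs
      · rw [hg, star_smul, star_trivial, smul_mul_assoc, smul_mul_assoc, mul_smul_comm,
          smul_smul, mul_smul_comm, smul_mul_assoc]
        norm_num
      · simp
    rw [e3]
    split_ifs <;> abel
  rw [h1]
  have h2 : ‖star ((2 : ℝ) • d) * (∑ r, E r) * ((2 : ℝ) • d)‖ ≤
      16 * (ε / 64 + 16 * n * C * C * η + 16 * η) := by
    have hd : ‖(2 : ℝ) • d‖ ≤ 2 := by
      rw [norm_smul, Real.norm_of_nonneg (by norm_num)]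
      linarith
    have hs : ‖∑ r, E r‖ ≤ 4 * (ε / 64 + 16 * n * C * C * η + 16 * η) := by
      refine (norm_sum_le _ _).trans ?_
      refine (Finset.sum_le_card_nsmul _ _ _ fun r _ => hEn r).trans ?_
      rw [nsmul_eq_mul, Finset.card_univ, Fintype.card_fin]
      norm_num
    calc _ ≤ 2 * (4 * (ε / 64 + 16 * n * C * C * η + 16 * η)) * 2 := by
          refine (norm_mul_le _ _).trans ?_
          gcongr
          refine (norm_mul_le _ _).trans ?_
          rw [norm_star]
          gcongr
      _ = _ := by ring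
  have h3 : ‖(if j = j' then star d * g * d - T else 0)‖ ≤ ε / 4 := by
    split_ifs
    · exact hd2
    · rw [norm_zero]; positivity
  have h4 : 16 * (16 * n * C * C * η + 16 * η) = ε / 4 := by
    rw [hη]
    field_simp
    ring
  calc _ ≤ _ := norm_add_le _ _
    _ ≤ 16 * (ε / 64 + 16 * n * C * C * η + 16 * η) + ε / 4 := add_le_add h2 h3
    _ ≤ ε := by linarith

theorem wpi_mult {n : ℕ} (hB : WPI B n) {e : ℕ → B} (he : AU e) [PartialOrder 𝓜(ℂ, B)]
    [StarOrderedRing 𝓜(ℂ, B)] : WPI 𝓜(ℂ, B) (4 * n) := by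
  intro T hT M ε hε
  obtain ⟨z, hz⟩ := wpi_mult_aux hB he T hT M (half_pos hε)
  refine ⟨fun i j => z (finProdFinEquiv.symm i).1 (finProdFinEquiv.symm i).2 j,
    fun j j' => ?_⟩
  have h1 : ∑ i : Fin (4 * n), star (z (finProdFinEquiv.symm i).1 (finProdFinEquiv.symm i).2 j) *
      T * z (finProdFinEquiv.symm i).1 (finProdFinEquiv.symm i).2 j' =
      ∑ r, ∑ l, star (z r l j) * T * z r l j' := by
    rw [Equiv.sum_comp finProdFinEquiv.symm (fun x : Fin 4 × Fin n =>
      star (z x.1 x.2 j) * T * z x.1 x.2 j'), Fintype.sum_prod_type]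
  rw [h1]
  exact (hz j j').trans_lt (half_lt_self hε)

end

end Vale.Agent.P133.R2.H28
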