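import Vale.Agent.P133.R2.H28.MDefs

/-!
P133 (helper28): strict limits in multiplier algebras.
-/

open scoped ComplexOrder MultiplierAlgebra
open Filter Topology

namespace Vale.Agent.P133.R2.H28

open Vale.Agent.P133 Vale.Agent.P133.Statement Vale.Agent.P133.H832 Vale.Agent.P133F
  Vale.Agent.P133.H681

universe u

section

variable {B : Type u} [NonUnitalCStarAlgebra B]

/-- the embedding of `B` into its multiplier algebra -/
noncomputable def emb : B →⋆ₙₐ[ℂ] 𝓜(ℂ, B) := DoubleCentralizer.coeHom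

theorem emb_fst (b x : B) : (emb b : 𝓜(ℂ, B)).fst x = b * x := rfl

theorem emb_snd (b x : B) : (emb b : 𝓜(ℂ, B)).snd x = x * b := rfl

theorem ext_fst {X Y : 𝓜(ℂ, B)} (h : ∀ b, X.fst b = Y.fst b) : X = Y := by
  have h1 : ‖X - Y‖ = 0 := by
    rw [← DoubleCentralizer.norm_fst, DoubleCentralizer.sub_fst]
    have : X.fst - Y.fst = 0 := by
      ext b; simp [h b]
    rw [this, norm_zero]
  exact sub_eq_zero.1 (norm_eq_zero.1 h1)

theorem mul_emb (X : 𝓜(ℂ, B)) (b : B) : X * emb b = emb (X.fst b) := by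
  refine ext_fst fun x => ?_
  rw [DoubleCentralizer.mul_fst]
  show X.fst (b * x) = X.fst b * x
  have h1 : ∀ y, y * X.fst (b * x) = y * (X.fst b * x) := by
    intro y
    rw [← X.central, ← mul_assoc y, ← X.central, mul_assoc]
  have h2 : star (X.fst (b * x) - X.fst b * x) * (X.fst (b * x) - X.fst b * x) = 0 := by
    rw [mul_sub, h1, sub_self]
  exact sub_eq_zero.1 ((CStarRing.star_mul_self_eq_zero_iff _).1 h2)

theorem emb_mul (X : 𝓜(ℂ, B)) (b : B) : emb b * X = emb (X.snd b) := by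
  refine ext_fst fun x => ?_
  rw [DoubleCentralizer.mul_fst]
  show b * X.fst x = X.snd b * x
  exact (X.central _ _).symm

theorem emb_injective : Function.Injective (emb : B →⋆ₙₐ[ℂ] 𝓜(ℂ, B)) := by
  intro b b' h
  have h1 : ∀ x : B, b * x = b' * x := fun x => by
    rw [← emb_fst, ← emb_fst, h]
  have h2 : (b - b') * star (b - b') = 0 := by
    rw [sub_mul, h1, sub_self]
  exact sub_eq_zero.1 ((CStarRing.mul_star_self_eq_zero_iff _).1 h2)

theorem norm_emb (b : B) : ‖(emb b : 𝓜(ℂ, B))‖ = ‖b‖ :=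
  NonUnitalStarAlgHom.norm_map _ emb_injective b

theorem norm_le_of {X : 𝓜(ℂ, B)} {C : ℝ} (hC : 0 ≤ C) (h : ∀ b : B, ‖X * emb b‖ ≤ C * ‖b‖) :
    ‖X‖ ≤ C := by
  rw [← DoubleCentralizer.norm_fst]
  refine ContinuousLinearMap.opNorm_le_bound _ hC fun b => ?_
  have := h b
  rwa [mul_emb, norm_emb] at this

/-- bounded strict convergence -/
structure SLim (S : ℕ → 𝓜(ℂ, B)) (Z : 𝓜(ℂ, B)) : Prop where
  bdd : ∃ C : ℝ, ∀ k, ‖S k‖ ≤ C
  left : ∀ b : B, Tendsto (fun k => S k * emb b) atTop (𝓝 (Z * emb b))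
  right : ∀ b : B, Tendsto (fun k => emb b * S k) atTop (𝓝 (emb b * Z))

theorem SLim.const (Z : 𝓜(ℂ, B)) : SLim (fun _ => Z) Z :=
  ⟨⟨‖Z‖, fun _ => le_rfl⟩, fun _ => tendsto_const_nhds, fun _ => tendsto_const_nhds⟩

theorem SLim.add {S S' : ℕ → 𝓜(ℂ, B)} {Z Z' : 𝓜(ℂ, B)} (h : SLim S Z) (h' : SLim S' Z') :
    SLim (fun k => S k + S' k) (Z + Z') := by
  obtain ⟨C, hC⟩ := h.bdd
  obtain ⟨C', hC'⟩ := h'.bdd
  refine ⟨⟨C + C', fun k => (norm_add_le _ _).trans (add_le_add (hC k) (hC' k))⟩,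
    fun b => ?_, fun b => ?_⟩
  · simpa only [add_mul] using (h.left b).add (h'.left b)
  · simpa only [mul_add] using (h.right b).add (h'.right b)

theorem SLim.neg {S : ℕ → 𝓜(ℂ, B)} {Z : 𝓜(ℂ, B)} (h : SLim S Z) :
    SLim (fun k => - S k) (- Z) := by
  obtain ⟨C, hC⟩ := h.bdd
  refine ⟨⟨C, fun k => by rw [norm_neg]; exact hC k⟩, fun b => ?_, fun b => ?_⟩
  · simpa only [neg_mul] using (h.left b).neg
  · simpa only [mul_neg] using (h.right b).neg

theorem SLim.sub {S S' : ℕ → 𝓜(ℂ, B)} {Z Z' : 𝓜(ℂ, B)} (h : SLim S Z) (h' : SLim S' Z') :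
    SLim (fun k => S k - S' k) (Z - Z') := by
  simpa only [sub_eq_add_neg] using h.add h'.neg

theorem SLim.star {S : ℕ → 𝓜(ℂ, B)} {Z : 𝓜(ℂ, B)} (h : SLim S Z) :
    SLim (fun k => star (S k)) (star Z) := by
  obtain ⟨C, hC⟩ := h.bdd
  refine ⟨⟨C, fun k => by rw [norm_star]; exact hC k⟩, fun b => ?_, fun b => ?_⟩
  · have h1 := (h.right (Star.star b)).star
    simpa only [star_mul, map_star, star_star] using h1
  · have h1 := (h.left (Star.star b)).star
    simpa only [star_mul, map_star, star_star] using h1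

theorem SLim.mul {S S' : ℕ → 𝓜(ℂ, B)} {Z Z' : 𝓜(ℂ, B)} (h : SLim S Z) (h' : SLim S' Z') :
    SLim (fun k => S k * S' k) (Z * Z') := by
  obtain ⟨C, hC⟩ := h.bdd
  obtain ⟨C', hC'⟩ := h'.bdd
  have hC0 : 0 ≤ C := (norm_nonneg _).trans (hC 0)
  have hC0' : 0 ≤ C' := (norm_nonneg _).trans (hC' 0)
  refine ⟨⟨C * C', fun k => (norm_mul_le _ _).trans
    (mul_le_mul (hC k) (hC' k) (norm_nonneg _) hC0)⟩, fun b => ?_, fun b => ?_⟩
  · have h1 : Tendsto (fun k => S k * (S' k * emb b - Z' * emb b)) atTop (𝓝 0) := by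
      rw [tendsto_zero_iff_norm_tendsto_zero]
      have h2 : Tendsto (fun k => C * ‖S' k * emb b - Z' * emb b‖) atTop (𝓝 0) := by
        have h3 := ((h'.left b).sub_const (Z' * emb b)).norm.const_mul C
        simpa using h3
      refine squeeze_zero (fun k => norm_nonneg _) (fun k => ?_) h2
      exact (norm_mul_le _ _).trans (mul_le_mul_of_nonneg_right (hC k) (norm_nonneg _))
    have h2 : Tendsto (fun k => S k * (Z' * emb b)) atTop (𝓝 (Z * (Z' * emb b))) := by
      rw [mul_emb]; exact h.left _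
    have h3 := h1.add h2
    simp only [mul_sub, sub_add_cancel, zero_add] at h3
    simpa only [mul_assoc] using h3
  · have h1 : Tendsto (fun k => (emb b * S k - emb b * Z) * S' k) atTop (𝓝 0) := by
      rw [tendsto_zero_iff_norm_tendsto_zero]
      have h2 : Tendsto (fun k => ‖emb b * S k - emb b * Z‖ * C') atTop (𝓝 0) := by
        have h3 := ((h.right b).sub_const (emb b * Z)).norm.mul_const C'
        simpa using h3
      refine squeeze_zero (fun k => norm_nonneg _) (fun k => ?_) h2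
      exact (norm_mul_le _ _).trans (mul_le_mul_of_nonneg_left (hC' k) (norm_nonneg _))
    have h2 : Tendsto (fun k => (emb b * Z) * S' k) atTop (𝓝 ((emb b * Z) * Z')) := by
      rw [emb_mul]; exact h'.right _
    have h3 := h1.add h2
    simp only [sub_mul, sub_add_cancel, zero_add] at h3
    simpa only [mul_assoc] using h3

theorem SLim.sum {κ : Type} (s : Finset κ) {S : κ → ℕ → 𝓜(ℂ, B)} {Z : κ → 𝓜(ℂ, B)}
    (h : ∀ i ∈ s, SLim (S i) (Z i)) : SLim (fun k => ∑ i ∈ s, S i k) (∑ i ∈ s, Z i) := by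
  classical
  induction s using Finset.induction_on with
  | empty => simpa using SLim.const (B := B) 0
  | insert i s hi ih =>
    simp only [Finset.sum_insert hi]
    exact (h i (Finset.mem_insert_self _ _)).add (ih fun j hj => h j (Finset.mem_insert_of_mem hj))

theorem SLim.ite {S : ℕ → 𝓜(ℂ, B)} {Z : 𝓜(ℂ, B)} (h : SLim S Z) (p : Prop) [Decidable p] :
    SLim (fun k => if p then S k else 0) (if p then Z else 0) := by
  split_ifs
  · exact h
  · exact SLim.const 0

theorem SLim.norm_le {S : ℕ → 𝓜(ℂ, B)} {Z : 𝓜(ℂ, B)} (h : SLim S Z) {C : ℝ} (hC : 0 ≤ C)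
    (hS : ∀ k, ‖S k‖ ≤ C) : ‖Z‖ ≤ C := by
  refine norm_le_of hC fun b => ?_
  refine le_of_tendsto (h.left b).norm (Eventually.of_forall fun k => ?_)
  refine (norm_mul_le _ _).trans ?_
  rw [norm_emb]
  exact mul_le_mul_of_nonneg_right (hS k) (norm_nonneg _)

theorem SLim.unique {S : ℕ → 𝓜(ℂ, B)} {Z Z' : 𝓜(ℂ, B)} (h : SLim S Z) (h' : SLim S Z') :
    Z = Z' := by
  refine ext_fst fun b => emb_injective ?_
  rw [← mul_emb, ← mul_emb]
  exact tendsto_nhds_unique (h.left b) (h'.left b)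

/-- partial sums of a bounded block sequence converge strictly -/
theorem exists_slim
    (strict_lim : ∀ {S : ℕ → B} {C : ℝ}, (∀ k, ‖S k‖ ≤ C) → (∀ b : B, CauchySeq fun k => S k * b) →
      (∀ b : B, CauchySeq fun k => b * S k) →
      ∃ Z : 𝓜(ℂ, B), (∀ b : B, Tendsto (fun k => S k * b) atTop (𝓝 (Z.fst b))) ∧
        ∀ b : B, Tendsto (fun k => b * S k) atTop (𝓝 (Z.snd b)))
    {e : ℕ → B} (he : AU e) {x : ℕ → B} {C : ℝ}
    (hC : ∀ K, ‖∑ i ∈ Finset.range K, x i‖ ≤ C)
    (hx : ∀ k, ∃ K, ∀ i, K ≤ i → x i * e k = 0 ∧ e k * x i = 0) :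
    ∃ Z : 𝓜(ℂ, B), SLim (fun K => emb (∑ i ∈ Finset.range K, x i)) Z := by
  set S : ℕ → B := fun K => ∑ i ∈ Finset.range K, x i with hS
  have hC0 : 0 ≤ C := (norm_nonneg _).trans (hC 0)
  have hdiff : ∀ k, ∃ K0, ∀ K L, K0 ≤ K → K0 ≤ L → S K * e k = S L * e k ∧
      e k * S K = e k * S L := by
    intro k
    obtain ⟨K0, hK0⟩ := hx k
    have h1 : ∀ K, K0 ≤ K → S K * e k = S K0 * e k ∧ e k * S K = e k * S K0 := by
      intro K hK
      induction K, hK using Nat.le_induction with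
      | base => exact ⟨rfl, rfl⟩
      | succ K hK ih =>
        have h2 : S (K + 1) = S K + x K := Finset.sum_range_succ x K
        rw [h2, add_mul, mul_add, (hK0 K hK).1, (hK0 K hK).2, add_zero, add_zero]
        exact ih
    exact ⟨K0, fun K L hK hL => ⟨(h1 K hK).1.trans (h1 L hL).1.symm,
      (h1 K hK).2.trans (h1 L hL).2.symm⟩⟩
  have hlim' : ∀ b : B, ∀ ε : ℝ, 0 < ε → ∃ k, ‖e k * b - b‖ < ε ∧ ‖b * e k - b‖ < ε := by
    intro b ε hε
    obtain ⟨k1, h1⟩ := he.lim b ε hε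
    obtain ⟨k2, h2⟩ := he.lim (Star.star b) ε hε
    refine ⟨max k1 k2, h1 _ (le_max_left _ _), ?_⟩
    have h3 := h2 _ (le_max_right k1 k2)
    rw [← norm_star, star_sub, star_mul, he.sa]
    exact h3
  have hcl : ∀ b : B, CauchySeq fun k => S k * b := by
    intro b
    rw [Metric.cauchySeq_iff']
    intro ε hε
    obtain ⟨k, hk, -⟩ := hlim' b (ε / (2 * C + 1)) (by positivity)
    obtain ⟨K0, hK0⟩ := hdiff k
    refine ⟨K0, fun K hK => ?_⟩
    rw [dist_eq_norm]
    have h1 : S K * b - S K0 * b = (S K - S K0) * (b - e k * b) := by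
      have h2 := (hK0 K K0 hK le_rfl).1
      rw [mul_sub, sub_mul, sub_mul, ← mul_assoc, ← mul_assoc, h2]
      abel
    rw [h1]
    calc _ ≤ ‖S K - S K0‖ * ‖b - e k * b‖ := norm_mul_le _ _
      _ ≤ (C + C) * ‖b - e k * b‖ := by
          gcongr
          exact (norm_sub_le _ _).trans (add_le_add (hC K) (hC K0))
      _ ≤ (C + C) * (ε / (2 * C + 1)) := by
          gcongr
          rw [norm_sub_rev]; exact hk.le
      _ = 2 * C / (2 * C + 1) * ε := by ring
      _ < ε := by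
          have h3 : 2 * C / (2 * C + 1) < 1 := by
            rw [div_lt_one (by positivity)]; linarith
          nlinarith
  have hcr : ∀ b : B, CauchySeq fun k => b * S k := by
    intro b
    rw [Metric.cauchySeq_iff']
    intro ε hε
    obtain ⟨k, -, hk⟩ := hlim' b (ε / (2 * C + 1)) (by positivity)
    obtain ⟨K0, hK0⟩ := hdiff k
    refine ⟨K0, fun K hK => ?_⟩
    rw [dist_eq_norm]
    have h1 : b * S K - b * S K0 = (b - b * e k) * (S K - S K0) := by
      have h2 := (hK0 K K0 hK le_rfl).2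
      rw [sub_mul, mul_sub, mul_sub, mul_assoc, mul_assoc, h2]
      abel
    rw [h1]
    calc _ ≤ ‖b - b * e k‖ * ‖S K - S K0‖ := norm_mul_le _ _
      _ ≤ ‖b - b * e k‖ * (C + C) := by
          gcongr
          exact (norm_sub_le _ _).trans (add_le_add (hC K) (hC K0))
      _ ≤ (ε / (2 * C + 1)) * (C + C) := by
          gcongr
          rw [norm_sub_rev]; exact hk.le
      _ = 2 * C / (2 * C + 1) * ε := by ring
      _ < ε := by
          have h3 : 2 * C / (2 * C + 1) < 1 := by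
            rw [div_lt_one (by positivity)]; linarith
          nlinarith
  obtain ⟨Z, hZ1, hZ2⟩ := strict_lim hC hcl hcr
  have hcont : Continuous (emb : B → 𝓜(ℂ, B)) :=
    (NonUnitalStarAlgHom.isometry (emb : B →⋆ₙₐ[ℂ] 𝓜(ℂ, B)) emb_injective).continuous
  refine ⟨Z, ⟨C, fun k => by rw [norm_emb]; exact hC k⟩, fun b => ?_, fun b => ?_⟩
  · rw [mul_emb]
    simp only [← map_mul]
    exact (hcont.tendsto _).comp (hZ1 b)
  · rw [emb_mul]
    simp only [← map_mul]
    exact (hcont.tendsto _).comp (hZ2 b)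

end

end Vale.Agent.P133.R2.H28
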