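import Vale.Agent.P133.R2.H28.Two
import Vale.Agent.P133.R2.H966.SameIdeal
import Vale.Agent.P133.R2.H905.WpiN
import Vale.Agent.P133.H681.WpiIdeal
import Vale.Agent.P133.H681.WpiUncond
import Vale.Agent.P133.H681.Generic

/-!
P133 (helper28, after a lemma of helper954): sums of orthogonal elements in weakly purely
infinite C*-algebras.
-/

open scoped ComplexOrder

namespace Vale.Agent.P133.R2.H28

open Vale.Agent.P133 Vale.Agent.P133.Statement Vale.Agent.P133.H832 Vale.Agent.P133F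
  Vale.Agent.P133.H681

universe u

section

variable {A : Type u} [NonUnitalCStarAlgebra A] [PartialOrder A] [StarOrderedRing A]

omit [PartialOrder A] [StarOrderedRing A] in
theorem Her.mem_RI {a b : A} (h : b ∈ Her a) : b ∈ RI a := by
  refine closure_mono ?_ h
  rintro _ ⟨w, rfl⟩
  exact ⟨w * a, by simp only [mul_assoc]⟩

theorem two_mul' {l : ℕ} (hA : WPI A (l + 1)) : PowProp A (Idx1 l) Bool :=
  two_mul_aux hA fun _ _ hx hc h _ hε => Vale.Agent.P133.R2.H966.same_ideal hx hc h hε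

theorem infB_mono {x z c : A} (hx : 0 ≤ x) (hz : 0 ≤ z) (hxz : x ∈ RI z) (h : InfB x c) :
    InfB z c := by
  refine ⟨h.1, fun m ε hε => ?_⟩
  have h1 : MulB (Fin m) x c := fun η hη => by
    obtain ⟨r, hr⟩ := h.2 m η hη
    exact ⟨r, fun i j => (hr i j).le⟩
  obtain ⟨r, hr⟩ := MulB.mono hx hz hxz h1 (ε / 2) (half_pos hε)
  exact ⟨r, fun i j => (hr i j).trans_lt (half_lt_self hε)⟩

/-- a sufficient number of orthogonal summands -/
def numS (n : ℕ) : ℕ := Fintype.card (Idx n (n + 1))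

/-- If `c` is in the closed ideal of each of sufficiently many orthogonal elements, then all
multiples of `c` are below their sum. -/
theorem infB_sum {n : ℕ} (hA : WPI A n) {N : ℕ} (hN : numS n ≤ N) {x : Fin N → A}
    (hx : ∀ i, 0 ≤ x i) (ho : ∀ i j, i ≠ j → x i * x j = 0) {c : A} (hc : 0 ≤ c)
    (hI : ∀ i, InId (x i) c) : InfB (∑ i, x i) c := by
  obtain ⟨e⟩ : Nonempty (Idx n (n + 1) ↪ Fin N) :=
    Function.Embedding.nonempty_of_card_le (by rw [Fintype.card_fin]; exact hN)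
  have h1 := infB_of_pow (WPI_succ hA) (κ := Mult (n + 1))
    (by rw [Mult.card]; exact (Nat.lt_two_pow_self).le)
    (pow_all (two_mul' (WPI_succ hA)) (n + 1)) (x := fun i => x (e i)) (fun i => hx _)
    (fun i j h => ho _ _ fun h1 => h (e.injective h1)) hc (fun i => hI _)
  refine infB_mono (Finset.sum_nonneg fun i _ => hx _) (Finset.sum_nonneg fun i _ => hx i)
    ?_ h1
  exact RI.sum _ fun i _ => mem_RI_sum hx ho (e i)

/-- pure infiniteness from large orthogonal families -/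
theorem pi_of_family {n : ℕ} (hA : WPI A n)
    (h : ∀ a : A, 0 ≤ a → ∀ δ : ℝ, 0 < δ → ∃ (N : ℕ) (x : Fin N → A), numS n ≤ N ∧
      (∀ i, 0 ≤ x i) ∧ (∀ i j, i ≠ j → x i * x j = 0) ∧
      (∀ i, x i ∈ closure (Set.range fun w => a * w * a)) ∧ ∀ i, InId (x i) (cut a δ)) :
    PurelyInfinite A := by
  refine pi_of_eltPI fun a a0 ε hε => ?_
  have hI : InfB a a := by
    refine infB_lim a0 fun η hη => ?_
    have hη2 : 0 < η / 2 := half_pos hη
    obtain ⟨N, x, hN, hx, ho, hxa, hxI⟩ := h a a0 (η / 2) hη2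
    refine ⟨cut a (η / 2), ?_, (norm_cut_sub_le a0 hη2).trans_lt (by linarith)⟩
    refine infB_mono (Finset.sum_nonneg fun i _ => hx i) a0 ?_
      (infB_sum hA hN hx ho (cut_nonneg _ _) hxI)
    exact RI.sum _ fun i _ => Her.mem_RI (hxa i)
  obtain ⟨r, hr⟩ := hI.2 2 ε hε
  refine ⟨r 0, r 1, ?_, ?_, ?_⟩
  · simpa using hr 0 0
  · simpa using hr 1 1
  · simpa using hr 0 1

/-- the sum theorem in terms of Cuntz comparison of matrices -/
theorem allBelow_sum (n : ℕ) (hn : 1 ≤ n) {A : Type u} [NonUnitalCStarAlgebra A] [PartialOrder A]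
    [StarOrderedRing A] (hA : ∀ h : A, 0 ≤ h → ProperlyInfiniteMat (diagN n h)) {N : ℕ}
    (hN : numS n ≤ N) (x : Fin N → A) (hx : ∀ i, 0 ≤ x i)
    (ho : ∀ i j, i ≠ j → x i * x j = 0) (c : A) (hc : 0 ≤ c)
    (hI : ∀ i, InId (x i) c) : AllBelow (∑ i, x i) c :=
  allBelow_of_infB (infB_sum (Vale.Agent.P133.R2.H905.wpi_n hA hn) hN hx ho hc hI)

end

end Vale.Agent.P133.R2.H28
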