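import Vale.Agent.P133.R2.H28.Core

/-!
P133 (helper28, after a lemma of helper954): multiples below orthogonal sums.
-/

open scoped ComplexOrder

namespace Vale.Agent.P133.R2.H28

open Vale.Agent.P133 Vale.Agent.P133.H832 Vale.Agent.P133F

universe u

section

variable {A : Type u} [NonUnitalCStarAlgebra A] [PartialOrder A] [StarOrderedRing A]

omit [PartialOrder A] [StarOrderedRing A] in
/-- `κ` many copies of `u` are below `z` -/
def MulB (κ : Type) [DecidableEq κ] (z u : A) : Prop :=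
  ∀ ε : ℝ, 0 < ε → ∃ r : κ → A, ∀ i j, ‖star (r i) * z * r j - (if i = j then u else 0)‖ ≤ ε

theorem mulB_of_RI {κ : Type} [Fintype κ] [DecidableEq κ] {z u : A} (hz : 0 ≤ z)
    (h : ∀ ε : ℝ, 0 < ε → ∃ v : κ → A, (∀ i, v i ∈ RI z) ∧
      ∀ i j, ‖star (v i) * v j - (if i = j then u else 0)‖ ≤ ε) : MulB κ z u := by
  intro ε hε
  obtain ⟨v, hv, hv'⟩ := h (ε / 2) (half_pos hε)
  set V : ℝ := ∑ i, ‖v i‖ with hV
  have hV0 : 0 ≤ V := Finset.sum_nonneg fun k _ => norm_nonneg _
  have hVi : ∀ i, ‖v i‖ ≤ V := fun i =>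
    Finset.single_le_sum (f := fun i => ‖v i‖) (fun i _ => norm_nonneg _) (Finset.mem_univ i)
  set η : ℝ := min 1 (ε / (4 * (V + 1))) with hη
  have hη0 : 0 < η := by rw [hη]; positivity
  have hη1 : η ≤ 1 := min_le_left _ _
  have hη2 : η * (4 * (V + 1)) ≤ ε := by
    rw [← le_div_iff₀ (by positivity)]; exact min_le_right _ _
  choose w hw using fun i => mem_RI.1 (hv i) η hη0
  have hqs : star (CFC.sqrt z) = CFC.sqrt z :=
    (IsSelfAdjoint.of_nonneg (CFC.sqrt_nonneg z)).star_eq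
  have hzs : star z = z := (IsSelfAdjoint.of_nonneg hz).star_eq
  have hqq : CFC.sqrt z * CFC.sqrt z = z := CFC.sqrt_mul_sqrt_self z hz
  have hqz : CFC.sqrt z * z * CFC.sqrt z = z * z := by
    calc CFC.sqrt z * z * CFC.sqrt z = CFC.sqrt z * (CFC.sqrt z * CFC.sqrt z) * CFC.sqrt z := by
          rw [hqq]
      _ = (CFC.sqrt z * CFC.sqrt z) * (CFC.sqrt z * CFC.sqrt z) := by simp only [mul_assoc]
      _ = z * z := by rw [hqq]
  refine ⟨fun i => CFC.sqrt z * w i, fun i j => ?_⟩
  have e1 : star (CFC.sqrt z * w i) * z * (CFC.sqrt z * w j) = star (z * w i) * (z * w j) := by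
    rw [star_mul, star_mul, hqs, hzs]
    calc _ = star (w i) * (CFC.sqrt z * z * CFC.sqrt z) * w j := by simp only [mul_assoc]
      _ = _ := by rw [hqz]; simp only [mul_assoc]
  have e2 : star (z * w i) * (z * w j) - star (v i) * v j =
      star (z * w i - v i) * (z * w j) + star (v i) * (z * w j - v j) := by
    rw [star_sub, sub_mul, mul_sub]; abel
  have hwj : ‖z * w j‖ ≤ V + 1 := by
    calc ‖z * w j‖ = ‖(z * w j - v j) + v j‖ := by rw [sub_add_cancel]
      _ ≤ ‖z * w j - v j‖ + ‖v j‖ := norm_add_le _ _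
      _ ≤ V + 1 := by linarith [hw j, hVi j]
  have e3 : ‖star (z * w i) * (z * w j) - star (v i) * v j‖ ≤ ε / 2 := by
    rw [e2]
    calc _ ≤ ‖z * w i - v i‖ * ‖z * w j‖ + ‖v i‖ * ‖z * w j - v j‖ := by
          refine (norm_add_le _ _).trans ?_
          gcongr
          · exact (norm_mul_le _ _).trans (by rw [norm_star])
          · exact (norm_mul_le _ _).trans (by rw [norm_star])
      _ ≤ η * (V + 1) + (V + 1) * η := by
          have h1 := (hw i).le
          have h2 := (hw j).le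
          have h3 : ‖v i‖ ≤ V + 1 := by linarith [hVi i]
          gcongr
      _ ≤ ε / 2 := by nlinarith
  rw [e1]
  calc _ = ‖(star (z * w i) * (z * w j) - star (v i) * v j) +
        (star (v i) * v j - (if i = j then u else 0))‖ := by rw [sub_add_sub_cancel]
    _ ≤ ε / 2 + ε / 2 := (norm_add_le _ _).trans (add_le_add e3 (hv' i j))
    _ = ε := by ring

theorem sqrt_conj {x : A} (hx : 0 ≤ x) (r s : A) :
    star (CFC.sqrt x * r) * (CFC.sqrt x * s) = star r * x * s := by
  have hqs : star (CFC.sqrt x) = CFC.sqrt x :=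
    (IsSelfAdjoint.of_nonneg (CFC.sqrt_nonneg x)).star_eq
  rw [star_mul, hqs]
  calc _ = star r * (CFC.sqrt x * CFC.sqrt x) * s := by simp only [mul_assoc]
    _ = _ := by rw [CFC.sqrt_mul_sqrt_self x hx]

theorem MulB.mono {κ : Type} [Fintype κ] [DecidableEq κ] {x z u : A} (hx : 0 ≤ x) (hz : 0 ≤ z)
    (hxz : x ∈ RI z) (h : MulB κ x u) : MulB κ z u := by
  refine mulB_of_RI hz fun ε hε => ?_
  obtain ⟨r, hr⟩ := h ε hε
  refine ⟨fun i => CFC.sqrt x * r i, fun i => RI.trans (RI.mul (sqrt_mem_RI hx) _) hxz,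
    fun i j => ?_⟩
  rw [sqrt_conj hx]
  exact hr i j

theorem mulB_comp {γ κ μ : Type} [Fintype γ] [DecidableEq γ] [Fintype κ] [DecidableEq κ]
    [Fintype μ] [DecidableEq μ] {Z w : γ → A} {v : A} (hZ : ∀ g, 0 ≤ Z g)
    (ho : ∀ g h, g ≠ h → Z g * Z h = 0) (h1 : ∀ g, MulB κ (Z g) (w g))
    (h2 : MulB μ (∑ g, w g) v) : MulB (κ × μ) (∑ g, Z g) v := by
  refine mulB_of_RI (Finset.sum_nonneg fun g _ => hZ g) fun ε hε => ?_
  obtain ⟨r, hr⟩ := h2 (ε / 2) (half_pos hε)
  set R : ℝ := ∑ i, ‖r i‖ with hR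
  have hR0 : 0 ≤ R := Finset.sum_nonneg fun k _ => norm_nonneg _
  have hRi : ∀ i, ‖r i‖ ≤ R := fun i =>
    Finset.single_le_sum (f := fun i => ‖r i‖) (fun i _ => norm_nonneg _) (Finset.mem_univ i)
  set G : ℝ := (Fintype.card γ : ℝ) with hG
  have hG0 : 0 ≤ G := Nat.cast_nonneg _
  set η : ℝ := ε / (2 * (R * R * G + 1)) with hη
  have hη0 : 0 < η := by positivity
  choose s hs using fun g => h1 g η hη0
  set T : κ → A := fun i => ∑ g, CFC.sqrt (Z g) * s g i with hT
  have hTT : ∀ i j, star (T i) * T j = ∑ g, star (s g i) * Z g * s g j := by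
    intro i j
    rw [hT, star_sum, Finset.sum_mul_sum]
    refine Finset.sum_congr rfl fun g _ => ?_
    rw [Finset.sum_eq_single g]
    · rw [sqrt_conj (hZ g)]
    · intro g' _ hg
      refine RI.orth (z := Z g) (z' := Z g') ?_ (RI.mul (sqrt_mem_RI (hZ g)) _)
        (RI.mul (sqrt_mem_RI (hZ g')) _)
      rw [(IsSelfAdjoint.of_nonneg (hZ g)).star_eq]
      exact ho _ _ (Ne.symm hg)
    · intro h; exact absurd (Finset.mem_univ _) h
  have hT1 : ∀ i j, ‖star (T i) * T j - (if i = j then ∑ g, w g else 0)‖ ≤ G * η := by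
    intro i j
    have e1 : star (T i) * T j - (if i = j then ∑ g, w g else 0) =
        ∑ g, (star (s g i) * Z g * s g j - (if i = j then w g else 0)) := by
      rw [hTT, Finset.sum_sub_distrib]
      congr 1
      split_ifs
      · rfl
      · simp
    rw [e1]
    refine (norm_sum_le _ _).trans ?_
    refine (Finset.sum_le_card_nsmul _ _ η fun g _ => hs g i j).trans ?_
    rw [nsmul_eq_mul, Finset.card_univ]
  refine ⟨fun p => T p.1 * r p.2, fun p => RI.mul ?_ _, fun p q => ?_⟩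
  · refine RI.sum _ fun g _ => RI.trans (RI.mul (sqrt_mem_RI (hZ g)) _) ?_
    exact mem_RI_sum hZ ho g
  · obtain ⟨i, a⟩ := p
    obtain ⟨j, b⟩ := q
    have e1 : star (T i * r a) * (T j * r b) = star (r a) * (star (T i) * T j) * r b := by
      rw [star_mul]; simp only [mul_assoc]
    have e2 : ‖star (r a) * (star (T i) * T j) * r b -
        star (r a) * (if i = j then ∑ g, w g else 0) * r b‖ ≤ ε / 2 := by
      rw [← sub_mul, ← mul_sub]
      calc _ ≤ ‖r a‖ * (G * η) * ‖r b‖ := by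
            refine (norm_mul_le _ _).trans ?_
            gcongr
            refine (norm_mul_le _ _).trans ?_
            rw [norm_star]
            gcongr
            exact hT1 i j
        _ ≤ R * (G * η) * R := by
            gcongr
            · exact hRi a
            · exact hRi b
        _ = R * R * G * η := by ring
        _ ≤ ε / 2 := by
            rw [hη, mul_div_assoc', div_le_div_iff₀ (by positivity) (by norm_num)]
            nlinarith [mul_nonneg (mul_nonneg hR0 hR0) hG0]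
    have e3 : ‖star (r a) * (if i = j then ∑ g, w g else 0) * r b -
        (if (i, a) = (j, b) then v else 0)‖ ≤ ε / 2 := by
      by_cases hij : i = j
      · subst hij
        simp only [if_true, Prod.mk.injEq, true_and]
        exact hr a b
      · have h3 : ¬ ((i, a) = (j, b)) := fun h => hij (congrArg Prod.fst h)
        rw [if_neg hij, if_neg h3]
        simpa using (half_pos hε).le
    show ‖star (T i * r a) * (T j * r b) - (if (i, a) = (j, b) then v else 0)‖ ≤ ε
    rw [e1]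
    calc _ = ‖(star (r a) * (star (T i) * T j) * r b -
          star (r a) * (if i = j then ∑ g, w g else 0) * r b) +
          (star (r a) * (if i = j then ∑ g, w g else 0) * r b -
          (if (i, a) = (j, b) then v else 0))‖ := by rw [sub_add_sub_cancel]
      _ ≤ ε / 2 + ε / 2 := (norm_add_le _ _).trans (add_le_add e2 e3)
      _ = ε := by ring

/-- the statement that `κ` many copies of an element whose ideal almost contains `c` are below
the sum of the orthogonal elements `x i`, `i : ι` -/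
def PowProp (A : Type u) [NonUnitalCStarAlgebra A] [PartialOrder A] [StarOrderedRing A]
    (ι κ : Type) [Fintype ι] [DecidableEq κ] : Prop :=
  ∀ x : ι → A, (∀ i, 0 ≤ x i) → (∀ i j, i ≠ j → x i * x j = 0) → ∀ c : A, 0 ≤ c →
    (∀ i, InId (x i) c) → ∀ ε : ℝ, 0 < ε →
    ∃ v : A, 0 ≤ v ∧ v ∈ RI (∑ i, x i) ∧ NormMod {v} c ε ∧ MulB κ (∑ i, x i) v

theorem normMod_singleton {v c : A} (h : InId v c) : NormMod {v} c 0 := by
  refine normMod_zero_of_inId h fun B i φ hφ => ?_
  rw [hφ v (Set.mem_singleton v), norm_zero]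

theorem pow_zero' : PowProp A Unit Unit := by
  intro x hx _ c hc hI ε hε
  have h1 : ∑ i : Unit, x i = x () := by simp
  refine ⟨x (), hx (), ?_, (normMod_singleton (hI ())).mono hε.le, ?_⟩
  · rw [h1]; exact self_mem_RI (hx ())
  · rw [h1]
    intro η hη
    obtain ⟨e, hes, hen, -, hye, hey⟩ := local_unit (hx ()) (ε := η / 2) (by positivity)
    refine ⟨fun _ => e, fun i j => ?_⟩
    rw [if_pos rfl, hes]
    have e1 : e * x () * e - x () = e * (x () * e - x ()) + (e * x () - x ()) := by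
      rw [mul_sub, ← mul_assoc]; abel
    rw [e1]
    calc _ ≤ 1 * (η / 2) + η / 2 := by
          refine (norm_add_le _ _).trans ?_
          gcongr
          refine (norm_mul_le _ _).trans ?_
          gcongr
      _ = η := by ring

theorem inId_cut_self {c : A} (hc : 0 ≤ c) {ε : ℝ} (hε : 0 < ε) : InId c (cut c ε) :=
  inId_cut hc (normMod_singleton (InId.refl c)) hε hε.le

/-- the index type of the families of the first doubling -/
abbrev Idx1 (l : ℕ) : Type := Fin (l + 1) ⊕ Tgt (l + 1) l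

theorem two_mul_aux {l : ℕ} (hA : WPI A (l + 1))
    (same_ideal : ∀ x c : A, 0 ≤ x → 0 ≤ c → InId x c → ∀ ε : ℝ, 0 < ε →
      ∃ X : A, 0 ≤ X ∧ X ∈ RI x ∧ InId (cut c ε) X ∧ InId X (cut c ε)) :
    PowProp A (Idx1 l) Bool := by
  intro x hx ho c hc hI ε hε
  set c' : A := cut c (ε / 2) with hc'
  have hε2 : 0 < ε / 2 := half_pos hε
  choose X hX0 hX1 hX2 hX3 using fun s : Fin (l + 1) =>
    same_ideal (x (Sum.inl s)) c (hx _) hc (hI _) (ε / 2) hε2
  have hxs : ∀ i, star (x i) = x i := fun i => (IsSelfAdjoint.of_nonneg (hx i)).star_eq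
  have hXs : ∀ s, star (X s) = X s := fun i => (IsSelfAdjoint.of_nonneg (hX0 i)).star_eq
  have hXo : ∀ s s', s ≠ s' → X s * X s' = 0 := by
    intro s s' h
    have h1 := RI.orth (z := x (Sum.inl s)) (z' := x (Sum.inl s'))
      (by rw [hxs]; exact ho _ _ fun h1 => h (Sum.inl_injective h1)) (hX1 s) (hX1 s')
    rwa [hXs] at h1
  obtain ⟨δ, hδ, hcore⟩ := core hA c' l X (fun t => x (Sum.inr t)) hX0 hXo (fun t => hx _)
    (fun t t' h => ho _ _ fun h1 => h (Sum.inr_injective h1)) hX3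
    (fun s s' => (hX3 s).trans (hX2 s')) (ε / 2) hε2
  have hYX : ∀ t : Tgt (l + 1) l, InId (x (Sum.inr t)) (X 0) := fun t =>
    ((hI _).trans (inId_cut_self hc hε2)).trans (hX2 0)
  choose r hr1 hr2 using fun t : Tgt (l + 1) l =>
    row_of_inId hA (hx (Sum.inr t)) (hX0 0) (hYX t) hδ
  obtain ⟨m, hm1, hm2, hm3⟩ := hcore ∅ (fun t i => CFC.sqrt (x (Sum.inr t)) * r t i)
    (fun t i => RI.mul (sqrt_mem_RI (hx _)) _)
    (fun t i => by rw [star_mul]; exact RI.mul (hr1 t i) _)
    (fun t => NormMod.of_norm (by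
      have h1 : ∑ i, star (CFC.sqrt (x (Sum.inr t)) * r t i) *
          (CFC.sqrt (x (Sum.inr t)) * r t i) = ∑ i, star (r t i) * x (Sum.inr t) * r t i :=
        Finset.sum_congr rfl fun i _ => sqrt_conj (hx _) _ _
      rw [h1, norm_sub_rev]
      exact hr2 t))
  have hX : 0 ≤ ∑ s, X s := Finset.sum_nonneg fun s _ => hX0 s
  have hY : 0 ≤ ∑ t : Tgt (l + 1) l, x (Sum.inr t) := Finset.sum_nonneg fun s _ => hx _
  have hx0 : 0 ≤ ∑ i, x i := Finset.sum_nonneg fun i _ => hx i
  have hXx : ∑ s, X s ∈ RI (∑ i, x i) :=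
    RI.sum _ fun s _ => RI.trans (hX1 s) (mem_RI_sum hx ho (Sum.inl s))
  have hYx : ∑ t : Tgt (l + 1) l, x (Sum.inr t) ∈ RI (∑ i, x i) :=
    RI.sum _ fun t _ => mem_RI_sum hx ho (Sum.inr t)
  have hXY : star (∑ s, X s) * (∑ t : Tgt (l + 1) l, x (Sum.inr t)) = 0 := by
    rw [star_sum, Finset.sum_mul_sum]
    refine Finset.sum_eq_zero fun s _ => Finset.sum_eq_zero fun t _ => ?_
    exact RI.orth (z := x (Sum.inl s)) (z' := x (Sum.inr t))
      (by rw [hxs]; exact ho _ _ (by simp)) (hX1 s) (self_mem_RI (hx _))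
  have hu : (0 : A) ≤ star m * m := star_mul_self_nonneg m
  have huX : star m * m ∈ RI (∑ s, X s) := RI.mul hm2 m
  have hqX : CFC.sqrt (star m * m) ∈ RI (∑ s, X s) := RI.trans (sqrt_mem_RI hu) huX
  have hqs : star (CFC.sqrt (star m * m)) = CFC.sqrt (star m * m) :=
    (IsSelfAdjoint.of_nonneg (CFC.sqrt_nonneg _)).star_eq
  have hqm : star (CFC.sqrt (star m * m)) * m = 0 := RI.orth hXY hqX hm1
  have hmq : star m * CFC.sqrt (star m * m) = 0 := by
    have h1 := congrArg star hqm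
    rwa [star_mul, star_star, star_zero] at h1
  refine ⟨star m * m, hu, RI.trans huX hXx, ?_, ?_⟩
  · have h1 : NormMod {star m * m} c' (ε / 2) := by
      intro B i φ hφ
      refine hm3 B i φ fun k hk => ?_
      rcases hk with rfl | hk
      · have h2 : φ (star k * k) = 0 := hφ _ (Set.mem_singleton _)
        rw [map_mul, map_star] at h2
        exact CStarRing.star_mul_self_eq_zero_iff _ |>.1 h2
      · exact absurd hk (Set.notMem_empty k)
    exact (normMod_of_cut hc hε2 h1).mono (by linarith)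
  · refine mulB_of_RI hx0 fun η hη => ⟨fun b => if b then CFC.sqrt (star m * m) else m, ?_, ?_⟩
    · intro b
      cases b
      · simp only [Bool.false_eq_true, if_false]
        exact RI.trans hm1 hYx
      · simp only [if_true]
        exact RI.trans hqX hXx
    · intro b b'
      have h0 : ‖(0 : A)‖ ≤ η := by rw [norm_zero]; exact hη.le
      cases b <;> cases b'
      · simpa using h0
      · simp only [Bool.false_eq_true, if_false, if_true, hmq]
        simpa using h0
      · simp only [Bool.false_eq_true, if_false, if_true, hqm]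
        simpa using h0
      · simp only [if_true, hqs, CFC.sqrt_mul_sqrt_self _ hu]
        simpa using h0

theorem pow_succ' {ι₁ ι κ μ : Type} [Fintype ι₁] [DecidableEq ι₁] [Fintype ι] [DecidableEq ι]
    [Fintype κ] [DecidableEq κ] [Fintype μ] [DecidableEq μ] (h1 : PowProp A ι₁ μ)
    (ih : PowProp A ι κ) : PowProp A (ι₁ × ι) (κ × μ) := by
  intro x hx ho c hc hI ε hε
  have hε2 : 0 < ε / 2 := half_pos hε
  have hog : ∀ g : ι₁, ∀ i j : ι, i ≠ j → x (g, i) * x (g, j) = 0 := fun g i j h =>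
    ho _ _ fun h1 => h (congrArg Prod.snd h1)
  choose w hw0 hw1 hw2 hw3 using fun g : ι₁ =>
    ih (fun i => x (g, i)) (fun i => hx _) (hog g) c hc (fun i => hI _) (ε / 2) hε2
  set Z : ι₁ → A := fun g => ∑ i, x (g, i) with hZ
  have hZ0 : ∀ g, 0 ≤ Z g := fun g => Finset.sum_nonneg fun i _ => hx _
  have hZo : ∀ g h, g ≠ h → Z g * Z h = 0 := by
    intro g h hgh
    rw [hZ]
    show (∑ i, x (g, i)) * (∑ i, x (h, i)) = 0
    rw [Finset.sum_mul_sum]
    exact Finset.sum_eq_zero fun i _ => Finset.sum_eq_zero fun j _ =>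
      ho _ _ fun h1 => hgh (congrArg Prod.fst h1)
  have hwo : ∀ g h, g ≠ h → w g * w h = 0 := by
    intro g h hgh
    have h1 := RI.orth (z := Z g) (z' := Z h)
      (by rw [(IsSelfAdjoint.of_nonneg (hZ0 g)).star_eq]; exact hZo g h hgh) (hw1 g) (hw1 h)
    rwa [(IsSelfAdjoint.of_nonneg (hw0 g)).star_eq] at h1
  obtain ⟨v, hv0, hv1, hv2, hv3⟩ := h1 w hw0 hwo (cut c (ε / 2)) (cut_nonneg _ _)
    (fun g => inId_cut hc (hw2 g) hε2 le_rfl) (ε / 2) hε2
  have hs : ∑ p : ι₁ × ι, x p = ∑ g, Z g := by rw [Fintype.sum_prod_type]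
  refine ⟨v, hv0, ?_, (normMod_of_cut hc hε2 hv2).mono (by linarith), ?_⟩
  · rw [hs]
    refine RI.trans hv1 (RI.sum _ fun g _ => RI.trans (hw1 g) ?_)
    exact mem_RI_sum hZ0 hZo g
  · rw [hs]
    exact mulB_comp hZ0 hZo hw3 hv3

/-- index types of the iterated doublings -/
def Idx (l : ℕ) : ℕ → Type
  | 0 => Unit
  | k + 1 => Idx1 l × Idx l k

instance Idx.fintype (l : ℕ) : ∀ k, Fintype (Idx l k)
  | 0 => inferInstanceAs (Fintype Unit)
  | k + 1 => @instFintypeProd _ _ _ (Idx.fintype l k)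

instance Idx.decEq (l : ℕ) : ∀ k, DecidableEq (Idx l k)
  | 0 => inferInstanceAs (DecidableEq Unit)
  | k + 1 => @instDecidableEqProd _ _ _ (Idx.decEq l k)

/-- index types of the multiples -/
def Mult : ℕ → Type
  | 0 => Unit
  | k + 1 => Mult k × Bool

instance Mult.fintype : ∀ k, Fintype (Mult k)
  | 0 => inferInstanceAs (Fintype Unit)
  | k + 1 => @instFintypeProd _ _ (Mult.fintype k) _

instance Mult.decEq : ∀ k, DecidableEq (Mult k)
  | 0 => inferInstanceAs (DecidableEq Unit)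
  | k + 1 => @instDecidableEqProd _ _ (Mult.decEq k) _

theorem Mult.card : ∀ k, Fintype.card (Mult k) = 2 ^ k
  | 0 => by
    show Fintype.card Unit = 2 ^ 0
    simp
  | k + 1 => by
    have h1 : Fintype.card (Mult k × Bool) = 2 ^ (k + 1) := by
      rw [Fintype.card_prod, Mult.card k, Fintype.card_bool, pow_succ]
    exact h1

theorem pow_all {l : ℕ} (h1 : PowProp A (Idx1 l) Bool) : ∀ k, PowProp A (Idx l k) (Mult k)
  | 0 => pow_zero'
  | k + 1 => pow_succ' h1 (pow_all h1 k)

theorem infB_of_mulB {n : ℕ} (hA : WPI A n) {κ : Type} [Fintype κ] [DecidableEq κ]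
    (hn : n ≤ Fintype.card κ) {z v : A} (hv : 0 ≤ v) (h : MulB κ z v) : InfB z v := by
  refine infB_of_wpi hA hv fun δ hδ => ?_
  obtain ⟨r, hr⟩ := h δ hδ
  obtain ⟨e⟩ : Nonempty (Fin n ↪ κ) :=
    Function.Embedding.nonempty_of_card_le (by rw [Fintype.card_fin]; exact hn)
  refine ⟨fun i => r (e i), fun i j => ?_⟩
  have h1 := hr (e i) (e j)
  simp only [EmbeddingLike.apply_eq_iff_eq] at h1
  exact h1

theorem infB_of_pow {n : ℕ} (hA : WPI A n) {ι κ : Type} [Fintype ι] [Fintype κ] [DecidableEq κ]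
    (hn : n ≤ Fintype.card κ) (h : PowProp A ι κ) {x : ι → A} (hx : ∀ i, 0 ≤ x i)
    (ho : ∀ i j, i ≠ j → x i * x j = 0) {c : A} (hc : 0 ≤ c) (hI : ∀ i, InId (x i) c) :
    InfB (∑ i, x i) c := by
  refine infB_lim hc fun ε hε => ?_
  have hε2 : 0 < ε / 2 := half_pos hε
  obtain ⟨v, hv0, -, hv2, hv3⟩ := h x hx ho c hc hI (ε / 2) hε2
  refine ⟨cut c (ε / 2), (infB_of_mulB hA hn hv0 hv3).sub
    (subId_of_inId' hv0 (cut_nonneg _ _) (inId_cut hc hv2 hε2 le_rfl)), ?_⟩
  exact (norm_cut_sub_le hc hε2).trans_lt (by linarith)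

end

end Vale.Agent.P133.R2.H28
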