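import Vale.Agent.P133.R2.H28.Conv
import Vale.Agent.P133.R2.H28.Mult
import Vale.Agent.P133.R2.H905.Back
import Vale.Agent.P133.R2.H328.NS
import Vale.Agent.P133.R2.H474.Her

/-!
P133 (helper28): reduction of question (a) to unital C*-algebras.
-/

open scoped ComplexOrder MultiplierAlgebra

namespace Vale.Agent.P133.R2.H28

open Vale.Agent.P133 Vale.Agent.P133.Statement Vale.Agent.P133.H832 Vale.Agent.P133F
  Vale.Agent.P133.H681

universe u

/-- The multiplier algebra of a hereditary subalgebra generated by one element of a weakly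
purely infinite C*-algebra is weakly purely infinite. -/
theorem twoOrth_of_mult {A : Type u} [NonUnitalCStarAlgebra A] [PartialOrder A]
    [StarOrderedRing A] {n : ℕ} (hA : WPI A n)
    (H : ∀ (D : Type u) [CStarAlgebra D] [PartialOrder D] [StarOrderedRing D],
      WPI D (4 * n) → ∃ x y : D, 0 ≤ x ∧ 0 ≤ y ∧ x * y = 0 ∧ InId x 1 ∧ InId y 1) :
    TwoOrth A := by
  intro a ha δ hδ
  obtain ⟨B, i1, i2, i3, φ, e, hφ, hr, hB, he⟩ := H474.her_data hA ha
  let _ : PartialOrder 𝓜(ℂ, B) := CStarAlgebra.spectralOrder _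
  have _ : StarOrderedRing 𝓜(ℂ, B) := CStarAlgebra.spectralOrderedRing _
  obtain ⟨x, y, hx, hy, hxy, hx1, hy1⟩ := H 𝓜(ℂ, B) (wpi_mult hB he)
  obtain ⟨b₁, b₂, h1, h2, h12, hb1, hb2, hI1, hI2⟩ :=
    H905.back φ hφ ha hr hx hy hxy hx1 hy1
  exact ⟨b₁, b₂, h1, h2, h12, hb1, hb2, hI1.trans (inId_cut_self ha hδ),
    hI2.trans (inId_cut_self ha hδ)⟩

/-- the converse in a unital algebra -/
theorem orth_one_of_twoOrth {A : Type u} [CStarAlgebra A] [PartialOrder A]
    [StarOrderedRing A] (h : TwoOrth A) :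
    ∃ x y : A, 0 ≤ x ∧ 0 ≤ y ∧ x * y = 0 ∧ InId x 1 ∧ InId y 1 := by
  obtain ⟨x, y, hx, hy, hxy, -, -, h1, h2⟩ := h 1 zero_le_one (1 / 2) (by norm_num)
  have h3 : cut (1 : A) (1 / 2) = (1 / 2 : ℂ) • (1 : A) := by
    have h5 : Continuous fun t : ℝ => max (t - 1 / 2) 0 := by fun_prop
    rw [cut, cfcₙ_eq_cfc (hf := h5.continuousOn)
      (hf0 := by norm_num), ← map_one (algebraMap ℝ A),
      cfc_algebraMap (1 : ℝ) (fun t : ℝ => max (t - 1 / 2) 0),
      Algebra.algebraMap_eq_smul_one]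
    have h6 : max (1 - 1 / 2 : ℝ) 0 = 1 / 2 := by norm_num
    rw [h6, ← Complex.coe_smul]
    simp
  have h4 : InId (cut (1 : A) (1 / 2)) 1 := by
    have h5 := (InId.refl (cut (1 : A) (1 / 2))).smul 2
    rwa [h3, smul_smul, show (2 : ℂ) * (1 / 2) = 1 by norm_num, one_smul, ← h3] at h5
  exact ⟨x, y, hx, hy, hxy, h1.trans h4, h2.trans h4⟩

/-- Question (a) is a question on unital C*-algebras. -/
theorem unital_iff :
    (∀ (A : Type u) [NonUnitalCStarAlgebra A] [PartialOrder A] [StarOrderedRing A],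
      WeaklyPurelyInfinite A → PurelyInfinite A) ↔
    ∀ (A : Type u) [CStarAlgebra A] [PartialOrder A] [StarOrderedRing A],
      WeaklyPurelyInfinite A → ∃ h : A, IsSelfAdjoint h ∧
        ∀ J : Submodule ℂ A, IsClosedIdeal J → (1 : A) ∉ J → ∀ l : ℝ, h - algebraMap ℝ A l ∉ J := by
  constructor
  · intro H A _ _ _ hW
    exact H328.orth_full_iff.1 (orth_one_of_twoOrth ((pi_iff_twoOrth hW).1 (H A hW)))
  · intro H A _ _ _ hW
    obtain ⟨n, hn⟩ := wpi_elementwise hW
    refine (pi_iff_twoOrth hW).2 (twoOrth_of_mult hn fun D _ _ _ hD => ?_)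
    exact H328.orth_full_iff.2 (H D (wpi_of_elt hD))

end Vale.Agent.P133.R2.H28
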